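import Mathlib

/-! # P205U : a coercive bounded operator on a Hilbert space is onto and bounded below -/

namespace Vale.Agent.P205U

/-- Bounded below: Cauchy-Schwarz.  Onto: with `M = ‖T‖` and `τ = c / M²`,
`‖(1 - τ T) ξ‖² = ‖ξ‖² - 2 τ Re ⟪T ξ, ξ⟫ + τ² ‖T ξ‖² ≤ (1 - c² / M²) ‖ξ‖²`, so `‖1 - τ T‖ < 1` and
`τ T = 1 - (1 - τ T)` is invertible (Neumann series: `Units.oneSub`, `NormedRing`), or use a
Banach fixed point, or closed range + trivial orthogonal complement. -/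
theorem coercive_bijective {H : Type*} [NormedAddCommGroup H] [InnerProductSpace ℂ H]
    [CompleteSpace H] (T : H →L[ℂ] H) {c : ℝ} (hc : 0 < c)
    (h : ∀ ξ, c * ‖ξ‖ ^ 2 ≤ (inner ℂ (T ξ) ξ).re) :
    (∀ ξ, c * ‖ξ‖ ≤ ‖T ξ‖) ∧ Function.Surjective T := by
  have hb : ∀ ξ, c * ‖ξ‖ ≤ ‖T ξ‖ := by
    intro ξ
    by_cases hξ : ξ = 0
    · simp [hξ]
    have hpos : 0 < ‖ξ‖ := norm_pos_iff.mpr hξ
    have h1 := h ξ
    have h2 : (inner ℂ (T ξ) ξ).re ≤ ‖T ξ‖ * ‖ξ‖ :=
      (Complex.re_le_norm _).trans (norm_inner_le_norm _ _)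
    have h3 : c * ‖ξ‖ * ‖ξ‖ ≤ ‖T ξ‖ * ‖ξ‖ := by nlinarith
    exact le_of_mul_le_mul_right h3 hpos
  refine ⟨hb, ?_⟩
  have hanti : AntilipschitzWith (Real.toNNReal c⁻¹) T := by
    apply AddMonoidHomClass.antilipschitz_of_bound
    intro x
    rw [Real.coe_toNNReal _ (inv_nonneg.mpr hc.le)]
    have := hb x
    rw [inv_mul_eq_div, le_div_iff₀ hc]
    linarith
  have hclosed : IsClosed (Set.range T) := hanti.isClosed_range T.uniformContinuous
  have htop : (LinearMap.range (T : H →ₗ[ℂ] H)) = ⊤ := by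
    have : CompleteSpace (LinearMap.range (T : H →ₗ[ℂ] H)) := by
      have : IsClosed ((LinearMap.range (T : H →ₗ[ℂ] H) : Submodule ℂ H) : Set H) := by
        have he : ((LinearMap.range (T : H →ₗ[ℂ] H) : Submodule ℂ H) : Set H) = Set.range T := by
          ext y
          simp [LinearMap.mem_range]
        rw [he]
        exact hclosed
      exact this.completeSpace_coe
    rw [← Submodule.orthogonal_eq_bot_iff, Submodule.eq_bot_iff]
    intro v hv
    have h0 : inner ℂ (T v) v = 0 := hv (T v) ⟨v, rfl⟩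
    have h1 := h v
    rw [h0] at h1
    simp only [Complex.zero_re] at h1
    have h2 : ‖v‖ ^ 2 ≤ 0 := by
      by_contra hh
      have : 0 < ‖v‖ ^ 2 := not_le.mp hh
      nlinarith
    have h3 : ‖v‖ = 0 := by
      have := sq_nonneg ‖v‖
      exact pow_eq_zero_iff (two_ne_zero) |>.mp (le_antisymm h2 this)
    exact norm_eq_zero.mp h3
  intro y
  have : y ∈ LinearMap.range (T : H →ₗ[ℂ] H) := htop ▸ Submodule.mem_top
  obtain ⟨x, hx⟩ := this
  exact ⟨x, hx⟩

end Vale.Agent.P205U
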