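import Vale.Agent.P205U.Defs

/-! # P205U : structure equations of a general coframe -/

namespace Vale.Agent.P205U

open scoped ContDiff
open Vale.Agent.P205T

variable {θ A₁ A₂ B₁ B₂ : ℝ × ℝ → ℝ}

private lemma cd_diff {u : ℝ × ℝ → ℝ} (h : ContDiff ℝ ∞ u) (z : ℝ × ℝ) : DifferentiableAt ℝ u z :=
  (h.differentiable (by simp)).differentiableAt

section

variable (hA₁ : ContDiff ℝ ∞ A₁) (hA₂ : ContDiff ℝ ∞ A₂) (hB₁ : ContDiff ℝ ∞ B₁)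
  (hB₂ : ContDiff ℝ ∞ B₂) (hd : ∀ z, dlt A₁ A₂ B₁ B₂ z ≠ 0)

include hA₁ hA₂ hB₁ hB₂ hd in
lemma contDiff_cnP : ContDiff ℝ ∞ (cnP A₁ A₂ B₁ B₂) := by
  have h1 : ContDiff ℝ ∞ (cc1 A₁ A₂) := (contDiff_dX hA₂).sub (contDiff_dY hA₁)
  have h2 : ContDiff ℝ ∞ (cc2 B₁ B₂) := (contDiff_dX hB₂).sub (contDiff_dY hB₁)
  have h3 : ContDiff ℝ ∞ (dlt A₁ A₂ B₁ B₂) := (hA₁.mul hB₂).sub (hA₂.mul hB₁)
  exact ((hA₁.mul h1).add (hB₁.mul h2)).div h3 hd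

include hA₁ hA₂ hB₁ hB₂ hd in
lemma contDiff_cnQ : ContDiff ℝ ∞ (cnQ A₁ A₂ B₁ B₂) := by
  have h1 : ContDiff ℝ ∞ (cc1 A₁ A₂) := (contDiff_dX hA₂).sub (contDiff_dY hA₁)
  have h2 : ContDiff ℝ ∞ (cc2 B₁ B₂) := (contDiff_dX hB₂).sub (contDiff_dY hB₁)
  have h3 : ContDiff ℝ ∞ (dlt A₁ A₂ B₁ B₂) := (hA₁.mul hB₂).sub (hA₂.mul hB₁)
  exact ((hA₂.mul h1).add (hB₂.mul h2)).div h3 hd

/- Linear algebra: `cc1 = P B₂ - Q B₁`, `cc2 = Q A₁ - P A₂`. -/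
include hd in
lemma cc1_eq (z : ℝ × ℝ) : cc1 A₁ A₂ z =
    cnP A₁ A₂ B₁ B₂ z * B₂ z - cnQ A₁ A₂ B₁ B₂ z * B₁ z := by
  have h := hd z
  unfold cnP cnQ
  field_simp
  unfold dlt
  ring

include hd in
lemma cc2_eq (z : ℝ × ℝ) : cc2 B₁ B₂ z =
    cnQ A₁ A₂ B₁ B₂ z * A₁ z - cnP A₁ A₂ B₁ B₂ z * A₂ z := by
  have h := hd z
  unfold cnP cnQ
  field_simp
  unfold dlt
  ring

variable (hθ : ContDiff ℝ ∞ θ)

include hA₁ hB₁ hθ in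
lemma contDiff_roX1 : ContDiff ℝ ∞ (roX1 θ A₁ B₁) :=
  ((Real.contDiff_cos.comp hθ).mul hA₁).sub ((Real.contDiff_sin.comp hθ).mul hB₁)

include hA₂ hB₂ hθ in
lemma contDiff_roX2 : ContDiff ℝ ∞ (roX2 θ A₂ B₂) :=
  ((Real.contDiff_cos.comp hθ).mul hA₂).sub ((Real.contDiff_sin.comp hθ).mul hB₂)

include hA₁ hB₁ hθ in
lemma contDiff_roY1 : ContDiff ℝ ∞ (roY1 θ A₁ B₁) :=
  ((Real.contDiff_sin.comp hθ).mul hA₁).add ((Real.contDiff_cos.comp hθ).mul hB₁)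

include hA₂ hB₂ hθ in
lemma contDiff_roY2 : ContDiff ℝ ∞ (roY2 θ A₂ B₂) :=
  ((Real.contDiff_sin.comp hθ).mul hA₂).add ((Real.contDiff_cos.comp hθ).mul hB₂)

private lemma dY_cosmul {θ A : ℝ × ℝ → ℝ} (hθ : ContDiff ℝ ∞ θ) (hA : ContDiff ℝ ∞ A) (z : ℝ × ℝ) :
    dY (fun w => Real.cos (θ w) * A w) z
      = -Real.sin (θ z) * dY θ z * A z + Real.cos (θ z) * dY A z := by
  have hc : DifferentiableAt ℝ (fun w => Real.cos (θ w)) z :=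
    cd_diff (Real.contDiff_cos.comp hθ) z
  rw [dY_mul hc (cd_diff hA z), dY_cos (cd_diff hθ z)]

private lemma dX_cosmul {θ A : ℝ × ℝ → ℝ} (hθ : ContDiff ℝ ∞ θ) (hA : ContDiff ℝ ∞ A) (z : ℝ × ℝ) :
    dX (fun w => Real.cos (θ w) * A w) z
      = -Real.sin (θ z) * dX θ z * A z + Real.cos (θ z) * dX A z := by
  have hc : DifferentiableAt ℝ (fun w => Real.cos (θ w)) z :=
    cd_diff (Real.contDiff_cos.comp hθ) z
  rw [dX_mul hc (cd_diff hA z), dX_cos (cd_diff hθ z)]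

private lemma dY_sinmul {θ A : ℝ × ℝ → ℝ} (hθ : ContDiff ℝ ∞ θ) (hA : ContDiff ℝ ∞ A) (z : ℝ × ℝ) :
    dY (fun w => Real.sin (θ w) * A w) z
      = Real.cos (θ z) * dY θ z * A z + Real.sin (θ z) * dY A z := by
  have hc : DifferentiableAt ℝ (fun w => Real.sin (θ w)) z :=
    cd_diff (Real.contDiff_sin.comp hθ) z
  rw [dY_mul hc (cd_diff hA z), dY_sin (cd_diff hθ z)]

private lemma dX_sinmul {θ A : ℝ × ℝ → ℝ} (hθ : ContDiff ℝ ∞ θ) (hA : ContDiff ℝ ∞ A) (z : ℝ × ℝ) :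
    dX (fun w => Real.sin (θ w) * A w) z
      = Real.cos (θ z) * dX θ z * A z + Real.sin (θ z) * dX A z := by
  have hc : DifferentiableAt ℝ (fun w => Real.sin (θ w)) z :=
    cd_diff (Real.contDiff_sin.comp hθ) z
  rw [dX_mul hc (cd_diff hA z), dX_sin (cd_diff hθ z)]

/- If `dθ` is the connection form, the rotated coframe is closed (rules `dX_mul`, `dX_cos`, ... of
`Vale.Agent.P205T.BasicB`, then `cc1_eq`, `cc2_eq` and `ring`/`linear_combination`). -/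
include hA₁ hA₂ hB₁ hB₂ hd hθ in
theorem closed_roX (h1 : ∀ z, dX θ z = cnP A₁ A₂ B₁ B₂ z) (h2 : ∀ z, dY θ z = cnQ A₁ A₂ B₁ B₂ z)
    (z : ℝ × ℝ) : dY (roX1 θ A₁ B₁) z = dX (roX2 θ A₂ B₂) z := by
  have e1 : dY (roX1 θ A₁ B₁) z = dY (fun w => Real.cos (θ w) * A₁ w) z
      - dY (fun w => Real.sin (θ w) * B₁ w) z :=
    dY_sub (cd_diff ((Real.contDiff_cos.comp hθ).mul hA₁) z)
      (cd_diff ((Real.contDiff_sin.comp hθ).mul hB₁) z)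
  have e2 : dX (roX2 θ A₂ B₂) z = dX (fun w => Real.cos (θ w) * A₂ w) z
      - dX (fun w => Real.sin (θ w) * B₂ w) z :=
    dX_sub (cd_diff ((Real.contDiff_cos.comp hθ).mul hA₂) z)
      (cd_diff ((Real.contDiff_sin.comp hθ).mul hB₂) z)
  rw [e1, e2, dY_cosmul hθ hA₁, dY_sinmul hθ hB₁, dX_cosmul hθ hA₂, dX_sinmul hθ hB₂, h1, h2]
  have c1 := cc1_eq hd z
  have c2 := cc2_eq hd z
  unfold cc1 at c1
  unfold cc2 at c2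
  linear_combination (-Real.cos (θ z)) * c1 + Real.sin (θ z) * c2

include hA₁ hA₂ hB₁ hB₂ hd hθ in
theorem closed_roY (h1 : ∀ z, dX θ z = cnP A₁ A₂ B₁ B₂ z) (h2 : ∀ z, dY θ z = cnQ A₁ A₂ B₁ B₂ z)
    (z : ℝ × ℝ) : dY (roY1 θ A₁ B₁) z = dX (roY2 θ A₂ B₂) z := by
  have e1 : dY (roY1 θ A₁ B₁) z = dY (fun w => Real.sin (θ w) * A₁ w) z
      + dY (fun w => Real.cos (θ w) * B₁ w) z :=
    dY_add (cd_diff ((Real.contDiff_sin.comp hθ).mul hA₁) z)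
      (cd_diff ((Real.contDiff_cos.comp hθ).mul hB₁) z)
  have e2 : dX (roY2 θ A₂ B₂) z = dX (fun w => Real.sin (θ w) * A₂ w) z
      + dX (fun w => Real.cos (θ w) * B₂ w) z :=
    dX_add (cd_diff ((Real.contDiff_sin.comp hθ).mul hA₂) z)
      (cd_diff ((Real.contDiff_cos.comp hθ).mul hB₂) z)
  rw [e1, e2, dY_sinmul hθ hA₁, dY_cosmul hθ hB₁, dX_sinmul hθ hA₂, dX_cosmul hθ hB₂, h1, h2]
  have c1 := cc1_eq hd z
  have c2 := cc2_eq hd z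
  unfold cc1 at c1
  unfold cc2 at c2
  linear_combination (-Real.sin (θ z)) * c1 - Real.cos (θ z) * c2

end

/-- The rotated coframe induces the same metric. -/
lemma metric_ro (z v w : ℝ × ℝ) :
    (roX1 θ A₁ B₁ z * v.1 + roX2 θ A₂ B₂ z * v.2) * (roX1 θ A₁ B₁ z * w.1 + roX2 θ A₂ B₂ z * w.2) +
      (roY1 θ A₁ B₁ z * v.1 + roY2 θ A₂ B₂ z * v.2) *
        (roY1 θ A₁ B₁ z * w.1 + roY2 θ A₂ B₂ z * w.2) =
    (A₁ z * v.1 + A₂ z * v.2) * (A₁ z * w.1 + A₂ z * w.2) +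
      (B₁ z * v.1 + B₂ z * v.2) * (B₁ z * w.1 + B₂ z * w.2) := by
  unfold roX1 roX2 roY1 roY2
  have h := Real.sin_sq_add_cos_sq (θ z)
  linear_combination ((A₁ z * v.1 + A₂ z * v.2) * (A₁ z * w.1 + A₂ z * w.2) +
      (B₁ z * v.1 + B₂ z * v.2) * (B₁ z * w.1 + B₂ z * w.2)) * h

/-- The rotated coframe has the same determinant. -/
lemma det_ro (z : ℝ × ℝ) :
    roX1 θ A₁ B₁ z * roY2 θ A₂ B₂ z - roX2 θ A₂ B₂ z * roY1 θ A₁ B₁ z = dlt A₁ A₂ B₁ B₂ z := by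
  unfold roX1 roX2 roY1 roY2 dlt
  have h := Real.sin_sq_add_cos_sq (θ z)
  linear_combination (A₁ z * B₂ z - A₂ z * B₁ z) * h

end Vale.Agent.P205U
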