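import Vale.Agent.P205U.Defs

/-! # P205U : the connection form of a conformally rescaled coframe -/

namespace Vale.Agent.P205U

open scoped ContDiff
open Vale.Agent.P205T

variable {u A₁ A₂ B₁ B₂ : ℝ × ℝ → ℝ}

lemma contDiff_scl {A : ℝ × ℝ → ℝ} (hu : ContDiff ℝ ∞ u) (hA : ContDiff ℝ ∞ A) :
    ContDiff ℝ ∞ (scl u A) := by
  show ContDiff ℝ ∞ (fun z => Real.exp (u z) * A z)
  exact (Real.contDiff_exp.comp hu).mul hA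

lemma dlt_scl (z : ℝ × ℝ) : dlt (scl u A₁) (scl u A₂) (scl u B₁) (scl u B₂) z =
    Real.exp (u z) ^ 2 * dlt A₁ A₂ B₁ B₂ z := by
  simp only [dlt, scl]
  ring

lemma per_scl {ω₁ ω₂ : ℝ × ℝ} {A : ℝ × ℝ → ℝ} (pu : Per ω₁ ω₂ u) (pA : Per ω₁ ω₂ A) :
    Per ω₁ ω₂ (scl u A) := by
  refine ⟨fun z => ?_, fun z => ?_⟩
  · simp only [scl, pu.1 z, pA.1 z]
  · simp only [scl, pu.2 z, pA.2 z]

lemma per_cnP {ω₁ ω₂ : ℝ × ℝ} (p1 : Per ω₁ ω₂ A₁) (p2 : Per ω₁ ω₂ A₂) (p3 : Per ω₁ ω₂ B₁)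
    (p4 : Per ω₁ ω₂ B₂) : Per ω₁ ω₂ (cnP A₁ A₂ B₁ B₂) := by
  refine ⟨fun z => ?_, fun z => ?_⟩
  · simp only [cnP, cc1, cc2, dlt, p1.1 z, p2.1 z, p3.1 z, p4.1 z, p1.dY.1 z, p2.dX.1 z,
      p3.dY.1 z, p4.dX.1 z]
  · simp only [cnP, cc1, cc2, dlt, p1.2 z, p2.2 z, p3.2 z, p4.2 z, p1.dY.2 z, p2.dX.2 z,
      p3.dY.2 z, p4.dX.2 z]

lemma per_cnQ {ω₁ ω₂ : ℝ × ℝ} (p1 : Per ω₁ ω₂ A₁) (p2 : Per ω₁ ω₂ A₂) (p3 : Per ω₁ ω₂ B₁)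
    (p4 : Per ω₁ ω₂ B₂) : Per ω₁ ω₂ (cnQ A₁ A₂ B₁ B₂) := by
  refine ⟨fun z => ?_, fun z => ?_⟩
  · simp only [cnQ, cc1, cc2, dlt, p1.1 z, p2.1 z, p3.1 z, p4.1 z, p1.dY.1 z, p2.dX.1 z,
      p3.dY.1 z, p4.dX.1 z]
  · simp only [cnQ, cc1, cc2, dlt, p1.2 z, p2.2 z, p3.2 z, p4.2 z, p1.dY.2 z, p2.dX.2 z,
      p3.dY.2 z, p4.dX.2 z]

private lemma dfb {f : ℝ × ℝ → ℝ} (h : ContDiff ℝ ∞ f) (z : ℝ × ℝ) : DifferentiableAt ℝ f z :=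
  (h.differentiable (by simp)).differentiableAt

private lemma dX_scl {A : ℝ × ℝ → ℝ} (hu : ContDiff ℝ ∞ u) (hA : ContDiff ℝ ∞ A) (z : ℝ × ℝ) :
    dX (scl u A) z = Real.exp (u z) * (dX u z * A z + dX A z) := by
  have h1 : DifferentiableAt ℝ (fun w => Real.exp (u w)) z :=
    dfb (Real.contDiff_exp.comp hu) z
  have h2 : dX (scl u A) z = dX (fun w => Real.exp (u w) * A w) z := rfl
  rw [h2, dX_mul h1 (dfb hA z), dX_exp (dfb hu z)]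
  ring

private lemma dY_scl {A : ℝ × ℝ → ℝ} (hu : ContDiff ℝ ∞ u) (hA : ContDiff ℝ ∞ A) (z : ℝ × ℝ) :
    dY (scl u A) z = Real.exp (u z) * (dY u z * A z + dY A z) := by
  have h1 : DifferentiableAt ℝ (fun w => Real.exp (u w)) z :=
    dfb (Real.contDiff_exp.comp hu) z
  have h2 : dY (scl u A) z = dY (fun w => Real.exp (u w) * A w) z := rfl
  rw [h2, dY_mul h1 (dfb hA z), dY_exp (dfb hu z)]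
  ring

private lemma contDiff_dlt (hA₁ : ContDiff ℝ ∞ A₁) (hA₂ : ContDiff ℝ ∞ A₂)
    (hB₁ : ContDiff ℝ ∞ B₁) (hB₂ : ContDiff ℝ ∞ B₂) : ContDiff ℝ ∞ (dlt A₁ A₂ B₁ B₂) := by
  show ContDiff ℝ ∞ (fun z => A₁ z * B₂ z - A₂ z * B₁ z)
  exact (hA₁.mul hB₂).sub (hA₂.mul hB₁)

private lemma contDiff_cc1 (hA₁ : ContDiff ℝ ∞ A₁) (hA₂ : ContDiff ℝ ∞ A₂) :
    ContDiff ℝ ∞ (cc1 A₁ A₂) := by
  show ContDiff ℝ ∞ (fun z => dX A₂ z - dY A₁ z)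
  exact (contDiff_dX hA₂).sub (contDiff_dY hA₁)

private lemma contDiff_cc2 (hB₁ : ContDiff ℝ ∞ B₁) (hB₂ : ContDiff ℝ ∞ B₂) :
    ContDiff ℝ ∞ (cc2 B₁ B₂) := by
  show ContDiff ℝ ∞ (fun z => dX B₂ z - dY B₁ z)
  exact (contDiff_dX hB₂).sub (contDiff_dY hB₁)

private lemma contDiff_cnP (hA₁ : ContDiff ℝ ∞ A₁) (hA₂ : ContDiff ℝ ∞ A₂)
    (hB₁ : ContDiff ℝ ∞ B₁) (hB₂ : ContDiff ℝ ∞ B₂) (hd : ∀ z, dlt A₁ A₂ B₁ B₂ z ≠ 0) :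
    ContDiff ℝ ∞ (cnP A₁ A₂ B₁ B₂) := by
  show ContDiff ℝ ∞
    (fun z => (A₁ z * cc1 A₁ A₂ z + B₁ z * cc2 B₁ B₂ z) / dlt A₁ A₂ B₁ B₂ z)
  exact ((hA₁.mul (contDiff_cc1 hA₁ hA₂)).add (hB₁.mul (contDiff_cc2 hB₁ hB₂))).div
    (contDiff_dlt hA₁ hA₂ hB₁ hB₂) hd

private lemma contDiff_cnQ (hA₁ : ContDiff ℝ ∞ A₁) (hA₂ : ContDiff ℝ ∞ A₂)
    (hB₁ : ContDiff ℝ ∞ B₁) (hB₂ : ContDiff ℝ ∞ B₂) (hd : ∀ z, dlt A₁ A₂ B₁ B₂ z ≠ 0) :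
    ContDiff ℝ ∞ (cnQ A₁ A₂ B₁ B₂) := by
  show ContDiff ℝ ∞
    (fun z => (A₂ z * cc1 A₁ A₂ z + B₂ z * cc2 B₁ B₂ z) / dlt A₁ A₂ B₁ B₂ z)
  exact ((hA₂.mul (contDiff_cc1 hA₁ hA₂)).add (hB₂.mul (contDiff_cc2 hB₁ hB₂))).div
    (contDiff_dlt hA₁ hA₂ hB₁ hB₂) hd

section

variable (hu : ContDiff ℝ ∞ u) (hA₁ : ContDiff ℝ ∞ A₁) (hA₂ : ContDiff ℝ ∞ A₂)
  (hB₁ : ContDiff ℝ ∞ B₁) (hB₂ : ContDiff ℝ ∞ B₂) (hd : ∀ z, dlt A₁ A₂ B₁ B₂ z ≠ 0)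

/- `P' = P + (F u_x - E u_y) / Δ`, with `E = A₁² + B₁²`, `F = A₁ A₂ + B₁ B₂`. -/
include hu hA₁ hA₂ hB₁ hB₂ hd in
theorem cnP_scl (z : ℝ × ℝ) : cnP (scl u A₁) (scl u A₂) (scl u B₁) (scl u B₂) z =
    cnP A₁ A₂ B₁ B₂ z + ((A₁ z * A₂ z + B₁ z * B₂ z) * dX u z -
      (A₁ z ^ 2 + B₁ z ^ 2) * dY u z) / dlt A₁ A₂ B₁ B₂ z := by
  have he : Real.exp (u z) ≠ 0 := (Real.exp_pos _).ne'
  have hdz := hd z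
  unfold cnP
  rw [dlt_scl]
  simp only [cc1, cc2, dX_scl hu hA₂, dY_scl hu hA₁, dX_scl hu hB₂, dY_scl hu hB₁]
  simp only [scl]
  field_simp
  ring

/- `Q' = Q + (G u_x - F u_y) / Δ`, with `G = A₂² + B₂²`. -/
include hu hA₁ hA₂ hB₁ hB₂ hd in
theorem cnQ_scl (z : ℝ × ℝ) : cnQ (scl u A₁) (scl u A₂) (scl u B₁) (scl u B₂) z =
    cnQ A₁ A₂ B₁ B₂ z + ((A₂ z ^ 2 + B₂ z ^ 2) * dX u z -
      (A₁ z * A₂ z + B₁ z * B₂ z) * dY u z) / dlt A₁ A₂ B₁ B₂ z := by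
  have he : Real.exp (u z) ≠ 0 := (Real.exp_pos _).ne'
  have hdz := hd z
  unfold cnQ
  rw [dlt_scl]
  simp only [cc1, cc2, dX_scl hu hA₂, dY_scl hu hA₁, dX_scl hu hB₂, dY_scl hu hB₁]
  simp only [scl]
  field_simp
  ring

/- The rescaled connection form is closed as soon as `u` solves the linear elliptic equation. -/
include hu hA₁ hA₂ hB₁ hB₂ hd in
theorem closed_cn_scl
    (hpde : ∀ z,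
      dX (fun w => (A₂ w ^ 2 + B₂ w ^ 2) / dlt A₁ A₂ B₁ B₂ w * dX u w +
          -(A₁ w * A₂ w + B₁ w * B₂ w) / dlt A₁ A₂ B₁ B₂ w * dY u w) z +
        dY (fun w => -(A₁ w * A₂ w + B₁ w * B₂ w) / dlt A₁ A₂ B₁ B₂ w * dX u w +
          (A₁ w ^ 2 + B₁ w ^ 2) / dlt A₁ A₂ B₁ B₂ w * dY u w) z =
      dX (fun w => -cnQ A₁ A₂ B₁ B₂ w) z - dY (fun w => -cnP A₁ A₂ B₁ B₂ w) z) (z : ℝ × ℝ) :
    dY (cnP (scl u A₁) (scl u A₂) (scl u B₁) (scl u B₂)) z =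
      dX (cnQ (scl u A₁) (scl u A₂) (scl u B₁) (scl u B₂)) z := by
  have hD := contDiff_dlt hA₁ hA₂ hB₁ hB₂
  have hux := contDiff_dX hu
  have huy := contDiff_dY hu
  have hp : ContDiff ℝ ∞ (fun w => ((A₁ w * A₂ w + B₁ w * B₂ w) * dX u w -
      (A₁ w ^ 2 + B₁ w ^ 2) * dY u w) / dlt A₁ A₂ B₁ B₂ w) :=
    ((((hA₁.mul hA₂).add (hB₁.mul hB₂)).mul hux).sub
      (((hA₁.pow 2).add (hB₁.pow 2)).mul huy)).div hD hd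
  have hq : ContDiff ℝ ∞ (fun w => ((A₂ w ^ 2 + B₂ w ^ 2) * dX u w -
      (A₁ w * A₂ w + B₁ w * B₂ w) * dY u w) / dlt A₁ A₂ B₁ B₂ w) :=
    ((((hA₂.pow 2).add (hB₂.pow 2)).mul hux).sub
      (((hA₁.mul hA₂).add (hB₁.mul hB₂)).mul huy)).div hD hd
  have e1 : cnP (scl u A₁) (scl u A₂) (scl u B₁) (scl u B₂) =
      fun w => cnP A₁ A₂ B₁ B₂ w + ((A₁ w * A₂ w + B₁ w * B₂ w) * dX u w -
      (A₁ w ^ 2 + B₁ w ^ 2) * dY u w) / dlt A₁ A₂ B₁ B₂ w :=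
    funext (cnP_scl hu hA₁ hA₂ hB₁ hB₂ hd)
  have e2 : cnQ (scl u A₁) (scl u A₂) (scl u B₁) (scl u B₂) =
      fun w => cnQ A₁ A₂ B₁ B₂ w + ((A₂ w ^ 2 + B₂ w ^ 2) * dX u w -
      (A₁ w * A₂ w + B₁ w * B₂ w) * dY u w) / dlt A₁ A₂ B₁ B₂ w :=
    funext (cnQ_scl hu hA₁ hA₂ hB₁ hB₂ hd)
  have f1 : (fun w => (A₂ w ^ 2 + B₂ w ^ 2) / dlt A₁ A₂ B₁ B₂ w * dX u w +
          -(A₁ w * A₂ w + B₁ w * B₂ w) / dlt A₁ A₂ B₁ B₂ w * dY u w) =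
      fun w => ((A₂ w ^ 2 + B₂ w ^ 2) * dX u w -
      (A₁ w * A₂ w + B₁ w * B₂ w) * dY u w) / dlt A₁ A₂ B₁ B₂ w := by
    funext w
    ring
  have f2 : (fun w => -(A₁ w * A₂ w + B₁ w * B₂ w) / dlt A₁ A₂ B₁ B₂ w * dX u w +
          (A₁ w ^ 2 + B₁ w ^ 2) / dlt A₁ A₂ B₁ B₂ w * dY u w) =
      fun w => -(((A₁ w * A₂ w + B₁ w * B₂ w) * dX u w -
      (A₁ w ^ 2 + B₁ w ^ 2) * dY u w) / dlt A₁ A₂ B₁ B₂ w) := by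
    funext w
    ring
  have h := hpde z
  rw [f1, f2, dY_neg, dX_neg, dY_neg] at h
  rw [e1, e2, dY_add (dfb (contDiff_cnP hA₁ hA₂ hB₁ hB₂ hd) z) (dfb hp z),
    dX_add (dfb (contDiff_cnQ hA₁ hA₂ hB₁ hB₂ hd) z) (dfb hq z)]
  linarith

end

end Vale.Agent.P205U
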