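import Mathlib

/-! # P205U : a proper local homeomorphism of the plane is bijective -/

namespace Vale.Agent.P205U

open Filter

/-- Proper (`isProperMap_iff_tendsto_cocompact`) gives a closed map with compact fibres; the fibres are
discrete (local injectivity), so finite; `IsClosedMap.isCoveringMapOn_of_isLocalHomeomorphOn` (with
`s = univ`) gives a covering map.  Surjective: the range is open, closed and nonempty.  Injective:
lift the identity through `Φ` with `IsCoveringMap.existsUnique_continuousMap_lifts` (the plane is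
simply connected and locally path connected) to get a continuous section `Ψ` with
`Ψ (Φ z₀) = z₀`; `Ψ ∘ Φ` and `id` are two lifts of `Φ` which agree at `z₀`, so they are equal
(`IsCoveringMap.eq_of_comp_eq` or the uniqueness part).  Files: Mathlib/Topology/Covering/Basic.lean,
Mathlib/Topology/Homotopy/Lifting.lean. -/
theorem bijective_of_proper_of_isLocalHomeomorph {Φ : ℝ × ℝ → ℝ × ℝ} (hc : Continuous Φ)
    (hl : IsLocalHomeomorph Φ) (hp : Tendsto Φ (cocompact (ℝ × ℝ)) (cocompact (ℝ × ℝ))) :
    Function.Bijective Φ := by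
  have hproper : IsProperMap Φ := isProperMap_iff_tendsto_cocompact.2 ⟨hc, hp⟩
  have hclosed : IsClosedMap Φ := hproper.isClosedMap
  have hfin : ∀ x ∈ (Set.univ : Set (ℝ × ℝ)), (Φ ⁻¹' {x}).Finite := by
    intro x _
    have hcomp : IsCompact (Φ ⁻¹' {x}) := hproper.isCompact_preimage isCompact_singleton
    refine hcomp.finite (IsDiscrete.of_openPartialHomeomorph Φ subset_rfl ?_)
    intro e _
    obtain ⟨φ, hφ, rfl⟩ := hl e
    exact ⟨φ, hφ, rfl⟩
  have hcovOn : IsCoveringMapOn Φ Set.univ := by
    apply hclosed.isCoveringMapOn_of_isLocalHomeomorphOn hfin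
    intro e _
    exact hl e
  have hcov : IsCoveringMap Φ := isCoveringMap_iff_isCoveringMapOn_univ.2 hcovOn
  have hsurj : Function.Surjective Φ := by
    have hclopen : IsClopen (Set.range Φ) := ⟨hclosed.isClosed_range, hl.isOpenMap.isOpen_range⟩
    have : Set.range Φ = Set.univ := hclopen.eq_univ (Set.range_nonempty Φ)
    exact Set.range_eq_univ.1 this
  refine ⟨?_, hsurj⟩
  intro z₀ z₁ h01
  obtain ⟨Ψ, ⟨hΨ0, hΨ⟩, -⟩ := hcov.existsUnique_continuousMap_lifts (ContinuousMap.id (ℝ × ℝ))
    (Φ z₀) z₀ rfl
  have key : (Ψ ∘ Φ) = id := by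
    apply hcov.eq_of_comp_eq (Ψ.continuous.comp hc) continuous_id _ z₀ hΨ0
    funext z
    have := congr_fun hΨ (Φ z)
    simpa using this
  have e0 := congr_fun key z₀
  have e1 := congr_fun key z₁
  simp only [Function.comp_apply, id] at e0 e1
  rw [← e0, ← e1, h01]


end Vale.Agent.P205U
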