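import Vale.Agent.P205T.SeriesB

/-! # P205U : convolution of rapidly decreasing families represents the product of functions -/

namespace Vale.Agent.P205U

open Vale.Agent.P205T

/-- Convolution of two families. -/
noncomputable def cvs (b ξ : ℤ × ℤ → ℂ) (k : ℤ × ℤ) : ℂ := ∑' m, b m * ξ (k - m)

variable {Φ : Freq} {b c d ξ : ℤ × ℤ → ℂ}

/-- reindexing `(k, m) ↦ (m, k - m)` -/
private def shear : ((ℤ × ℤ) × (ℤ × ℤ)) ≃ ((ℤ × ℤ) × (ℤ × ℤ)) where
  toFun p := (p.2, p.1 - p.2)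
  invFun q := (q.1 + q.2, q.1)
  left_inv p := by simp
  right_inv q := by simp

private lemma nrm_le_mul (k m : ℤ × ℤ) : nrm k ≤ nrm m * nrm (k - m) := by
  unfold nrm
  have h1 : |(k.1 : ℝ)| ≤ |(m.1 : ℝ)| + |((k - m).1 : ℝ)| := by
    have : (k.1 : ℝ) = (m.1 : ℝ) + ((k - m).1 : ℝ) := by simp
    calc |(k.1 : ℝ)| = |(m.1 : ℝ) + ((k - m).1 : ℝ)| := by rw [← this]
      _ ≤ _ := abs_add_le _ _
  have h2 : |(k.2 : ℝ)| ≤ |(m.2 : ℝ)| + |((k - m).2 : ℝ)| := by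
    have : (k.2 : ℝ) = (m.2 : ℝ) + ((k - m).2 : ℝ) := by simp
    calc |(k.2 : ℝ)| = |(m.2 : ℝ) + ((k - m).2 : ℝ)| := by rw [← this]
      _ ≤ _ := abs_add_le _ _
  have a1 := abs_nonneg (m.1 : ℝ)
  have a2 := abs_nonneg (m.2 : ℝ)
  have a3 := abs_nonneg ((k - m).1 : ℝ)
  have a4 := abs_nonneg ((k - m).2 : ℝ)
  nlinarith [mul_nonneg a1 a3, mul_nonneg a1 a4, mul_nonneg a2 a3, mul_nonneg a2 a4]

private lemma summable_shear (hb : RD b) (hξ : RD ξ) (M : ℕ) :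
    Summable fun p : (ℤ × ℤ) × (ℤ × ℤ) =>
      (‖b p.2‖ * nrm p.2 ^ M) * (‖ξ (p.1 - p.2)‖ * nrm (p.1 - p.2) ^ M) := by
  have h0 : Summable fun q : (ℤ × ℤ) × (ℤ × ℤ) =>
      (‖b q.1‖ * nrm q.1 ^ M) * (‖ξ q.2‖ * nrm q.2 ^ M) := by
    refine Summable.mul_of_nonneg (hb M) (hξ M) (fun k => ?_) (fun k => ?_)
    · exact mul_nonneg (norm_nonneg _) (pow_nonneg (le_trans zero_le_one (one_le_nrm k)) _)
    · exact mul_nonneg (norm_nonneg _) (pow_nonneg (le_trans zero_le_one (one_le_nrm k)) _)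
  exact (shear.summable_iff.mpr h0)

/-- `nrm k ≤ nrm m * nrm (k - m)`, then Tonelli. -/
theorem RD_cvs (hb : RD b) (hξ : RD ξ) : RD (cvs b ξ) := by
  intro M
  have hS := summable_shear hb hξ M
  have hS0 := summable_shear hb hξ 0
  refine Summable.of_nonneg_of_le (fun k => ?_) (fun k => ?_) hS.prod
  · exact mul_nonneg (norm_nonneg _) (pow_nonneg (le_trans zero_le_one (one_le_nrm k)) _)
  · have hk0 : 0 ≤ nrm k := le_trans zero_le_one (one_le_nrm k)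
    have hf := hS.prod_factor k
    have hf0 : Summable fun m => ‖b m * ξ (k - m)‖ := by
      have := hS0.prod_factor k
      simpa [norm_mul] using this
    unfold cvs
    calc ‖∑' m, b m * ξ (k - m)‖ * nrm k ^ M
        ≤ (∑' m, ‖b m * ξ (k - m)‖) * nrm k ^ M :=
          mul_le_mul_of_nonneg_right (norm_tsum_le_tsum_norm hf0) (pow_nonneg hk0 _)
      _ = ∑' m, ‖b m * ξ (k - m)‖ * nrm k ^ M := (tsum_mul_right).symm
      _ ≤ ∑' m, (‖b m‖ * nrm m ^ M) * (‖ξ (k - m)‖ * nrm (k - m) ^ M) := by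
          refine Summable.tsum_le_tsum (fun m => ?_) (hf0.mul_right _) hf
          rw [norm_mul]
          have h1 : nrm k ^ M ≤ nrm m ^ M * nrm (k - m) ^ M := by
            rw [← mul_pow]
            exact pow_le_pow_left₀ hk0 (nrm_le_mul k m) M
          calc ‖b m‖ * ‖ξ (k - m)‖ * nrm k ^ M
              ≤ ‖b m‖ * ‖ξ (k - m)‖ * (nrm m ^ M * nrm (k - m) ^ M) :=
                mul_le_mul_of_nonneg_left h1 (mul_nonneg (norm_nonneg _) (norm_nonneg _))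
            _ = _ := by ring

private lemma tsum_mul_shear (u v : ℤ × ℤ → ℂ) (hu : Summable fun m => ‖u m‖)
    (hv : Summable fun l => ‖v l‖) :
    (∑' m, u m) * (∑' l, v l) = ∑' k, ∑' m, u m * v (k - m) := by
  have hH : Summable fun q : (ℤ × ℤ) × (ℤ × ℤ) => u q.1 * v q.2 :=
    summable_mul_of_summable_norm hu hv
  have hH' : Summable fun p : (ℤ × ℤ) × (ℤ × ℤ) => u p.2 * v (p.1 - p.2) :=
    (shear.summable_iff.mpr hH)
  have e1 : ∑' p : (ℤ × ℤ) × (ℤ × ℤ), u p.2 * v (p.1 - p.2)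
      = ∑' k, ∑' m, u m * v (k - m) := hH'.tsum_prod
  have e2 : ∑' p : (ℤ × ℤ) × (ℤ × ℤ), u p.2 * v (p.1 - p.2)
      = ∑' q : (ℤ × ℤ) × (ℤ × ℤ), u q.1 * v q.2 :=
    shear.tsum_eq (fun q : (ℤ × ℤ) × (ℤ × ℤ) => u q.1 * v q.2)
  rw [tsum_mul_tsum_of_summable_norm hu hv, ← e2, e1]

/-- `tsum_mul_tsum_of_summable_norm`, reindexing `(m, l) ↦ (m, m + l)`, `chr_add`. -/
theorem evs_cvs (hb : RD b) (hξ : RD ξ) (z : ℝ × ℝ) :
    evs Φ (cvs b ξ) z = evs Φ b z * evs Φ ξ z := by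
  have hu : Summable fun m => ‖b m * chr Φ m z‖ := by
    simpa [norm_mul, norm_chr] using hb.summable_norm
  have hv : Summable fun l => ‖ξ l * chr Φ l z‖ := by
    simpa [norm_mul, norm_chr] using hξ.summable_norm
  unfold evs
  rw [tsum_mul_shear _ _ hu hv]
  refine tsum_congr fun k => ?_
  unfold cvs
  rw [← tsum_mul_right]
  refine tsum_congr fun m => ?_
  have : chr Φ k z = chr Φ m z * chr Φ (k - m) z := by
    rw [← chr_add]
    congr 1
    abel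
  rw [this]
  ring

/-- For a Hermitian `b` (real function) real parts multiply. -/
theorem evr_cvs (hb : RD b) (hh : Herm b) (hξ : RD ξ) (z : ℝ × ℝ) :
    evr Φ (cvs b ξ) z = evr Φ b z * evr Φ ξ z := by
  have h1 : evr Φ (cvs b ξ) z = (evs Φ b z * evs Φ ξ z).re := by
    unfold evr
    rw [evs_cvs hb hξ]
  rw [h1, evs_eq_evr hb hh z, Complex.re_ofReal_mul]
  rfl

lemma evr_add (hc : RD c) (hd : RD d) (z : ℝ × ℝ) :
    evr Φ (fun k => c k + d k) z = evr Φ c z + evr Φ d z := by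
  unfold evr evs
  rw [← Complex.add_re, ← (hc.summable_chr z).tsum_add (hd.summable_chr z)]
  congr 1
  refine tsum_congr fun k => ?_
  ring

lemma evr_real_mul (hc : RD c) (t : ℝ) (z : ℝ × ℝ) :
    evr Φ (fun k => (t : ℂ) * c k) z = t * evr Φ c z := by
  unfold evr evs
  rw [← Complex.re_ofReal_mul, ← tsum_mul_left]
  congr 1
  refine tsum_congr fun k => ?_
  ring

lemma RD.sub (hc : RD c) (hd : RD d) : RD (fun k => c k - d k) := by
  have h := hc.add (hd.const_mul (-1))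
  refine (fun m => (h m).congr fun k => ?_)
  congr 2
  ring

lemma evr_sub (hc : RD c) (hd : RD d) (z : ℝ × ℝ) :
    evr Φ (fun k => c k - d k) z = evr Φ c z - evr Φ d z := by
  have h1 : (fun k => c k - d k) = fun k => c k + ((-1 : ℝ) : ℂ) * d k := by
    funext k
    push_cast
    ring
  rw [h1, evr_add hc (hd.const_mul _), evr_real_mul hd]
  ring

section Flux

variable (Φ) (lam : ℝ) (b11 b12 b22 u : ℤ × ℤ → ℂ)

/-- Coefficients of `(B ∇u)₁`. -/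
noncomputable def gW1 (k : ℤ × ℤ) : ℂ := cvs b11 (Da Φ u) k + cvs b12 (Db Φ u) k

/-- Coefficients of `(B ∇u)₂`. -/
noncomputable def gW2 (k : ℤ × ℤ) : ℂ := cvs b12 (Da Φ u) k + cvs b22 (Db Φ u) k

/-- Coefficients of the first component of the flux `(λ + B²) ∇u`. -/
noncomputable def gJ1 (k : ℤ × ℤ) : ℂ :=
  (lam : ℂ) * Da Φ u k + cvs b11 (gW1 Φ b11 b12 u) k + cvs b12 (gW2 Φ b12 b22 u) k

/-- Coefficients of the second component of the flux. -/
noncomputable def gJ2 (k : ℤ × ℤ) : ℂ :=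
  (lam : ℂ) * Db Φ u k + cvs b12 (gW1 Φ b11 b12 u) k + cvs b22 (gW2 Φ b12 b22 u) k

variable {b11 b12 b22 u}

lemma RD_gW1 (r11 : RD b11) (r12 : RD b12) (hu : RD u) : RD (gW1 Φ b11 b12 u) :=
  (RD_cvs r11 hu.Da).add (RD_cvs r12 hu.Db)

lemma RD_gW2 (r12 : RD b12) (r22 : RD b22) (hu : RD u) : RD (gW2 Φ b12 b22 u) :=
  (RD_cvs r12 hu.Da).add (RD_cvs r22 hu.Db)

lemma RD_gJ1 (r11 : RD b11) (r12 : RD b12) (r22 : RD b22) (hu : RD u) :
    RD (gJ1 Φ lam b11 b12 b22 u) :=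
  ((hu.Da.const_mul _).add (RD_cvs r11 (RD_gW1 Φ r11 r12 hu))).add
    (RD_cvs r12 (RD_gW2 Φ r12 r22 hu))

lemma RD_gJ2 (r11 : RD b11) (r12 : RD b12) (r22 : RD b22) (hu : RD u) :
    RD (gJ2 Φ lam b11 b12 b22 u) :=
  ((hu.Db.const_mul _).add (RD_cvs r12 (RD_gW1 Φ r11 r12 hu))).add
    (RD_cvs r22 (RD_gW2 Φ r12 r22 hu))

end Flux

end Vale.Agent.P205U
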