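import Vale.Agent.P205T.Main

/-!
# P205U : every smooth Riemannian metric `E dx² + 2 F dx dy + G dy²` on a torus immerses in `ℝ⁴`

Formal uniformisation of the torus, then `Vale.Agent.P205T.conformal_torus`.
Common definitions (geometry part).
-/

namespace Vale.Agent.P205U

open Vale.Agent.P205T

section Coframe

/- A coframe `E¹ = A₁ dx + A₂ dy`, `E² = B₁ dx + B₂ dy`. -/
variable (A₁ A₂ B₁ B₂ : ℝ × ℝ → ℝ) (z : ℝ × ℝ)

/-- The determinant of the coframe. -/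
noncomputable def dlt : ℝ := A₁ z * B₂ z - A₂ z * B₁ z

/-- `dE¹ = cc1 dx ∧ dy`. -/
noncomputable def cc1 : ℝ := dX A₂ z - dY A₁ z

/-- `dE² = cc2 dx ∧ dy`. -/
noncomputable def cc2 : ℝ := dX B₂ z - dY B₁ z

/-- `dx`-component of the connection form. -/
noncomputable def cnP : ℝ := (A₁ z * cc1 A₁ A₂ z + B₁ z * cc2 B₁ B₂ z) / dlt A₁ A₂ B₁ B₂ z

/-- `dy`-component of the connection form. -/
noncomputable def cnQ : ℝ := (A₂ z * cc1 A₁ A₂ z + B₂ z * cc2 B₁ B₂ z) / dlt A₁ A₂ B₁ B₂ z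

end Coframe

/-- `exp u * A`. -/
noncomputable def scl (u A : ℝ × ℝ → ℝ) (z : ℝ × ℝ) : ℝ := Real.exp (u z) * A z

section Rot

variable (θ A₁ A₂ B₁ B₂ : ℝ × ℝ → ℝ) (z : ℝ × ℝ)

/-- Components of `cos θ E¹ - sin θ E²` and `sin θ E¹ + cos θ E²`. -/
noncomputable def roX1 : ℝ := Real.cos (θ z) * A₁ z - Real.sin (θ z) * B₁ z
noncomputable def roX2 : ℝ := Real.cos (θ z) * A₂ z - Real.sin (θ z) * B₂ z
noncomputable def roY1 : ℝ := Real.sin (θ z) * A₁ z + Real.cos (θ z) * B₁ z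
noncomputable def roY2 : ℝ := Real.sin (θ z) * A₂ z + Real.cos (θ z) * B₂ z

end Rot

end Vale.Agent.P205U
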