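import Vale.Agent.P205U.HolonomyG

/-! # P205U : `a = λ I + B²` for a smooth periodic positive definite matrix of determinant one -/

namespace Vale.Agent.P205U

open scoped ContDiff
open Vale.Agent.P205T

/-- `t = a11 + a22 ≥ 2` is bounded by some `M` (`exists_max_of_per`); `λ = 1 / (2 M)`.
`p = a - λ I` has `det p = 1 - λ t + λ² ≥ 1/2` and trace `t - 2 λ > 0`.  With `δ = sqrt (det p)` and
`σ = sqrt (t - 2 λ + 2 δ)` put `B = (p + δ I) / σ`; Cayley-Hamilton gives `B² = p`. -/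
theorem exists_sqrt_decomp {ω₁ ω₂ : ℝ × ℝ} (hω : ω₁.1 * ω₂.2 - ω₁.2 * ω₂.1 ≠ 0)
    {a11 a12 a22 : ℝ × ℝ → ℝ} (s11 : ContDiff ℝ ∞ a11) (s12 : ContDiff ℝ ∞ a12)
    (s22 : ContDiff ℝ ∞ a22) (p11 : Per ω₁ ω₂ a11) (p12 : Per ω₁ ω₂ a12) (p22 : Per ω₁ ω₂ a22)
    (hpos : ∀ z, 0 < a11 z) (hdet : ∀ z, a11 z * a22 z - a12 z ^ 2 = 1) :
    ∃ (lam : ℝ) (b11 b12 b22 : ℝ × ℝ → ℝ), 0 < lam ∧
      ContDiff ℝ ∞ b11 ∧ ContDiff ℝ ∞ b12 ∧ ContDiff ℝ ∞ b22 ∧
      Per ω₁ ω₂ b11 ∧ Per ω₁ ω₂ b12 ∧ Per ω₁ ω₂ b22 ∧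
      (∀ z, a11 z = lam + b11 z ^ 2 + b12 z ^ 2) ∧
      (∀ z, a12 z = b11 z * b12 z + b12 z * b22 z) ∧
      (∀ z, a22 z = lam + b12 z ^ 2 + b22 z ^ 2) := by
  -- the trace
  have st : ContDiff ℝ ∞ (fun z => a11 z + a22 z) := s11.add s22
  have pt : Per ω₁ ω₂ (fun z => a11 z + a22 z) :=
    ⟨fun z => by simp only [p11.1 z, p22.1 z], fun z => by simp only [p11.2 z, p22.2 z]⟩
  obtain ⟨z₀, hz₀⟩ := exists_max_of_per hω st.continuous pt
  have h22 : ∀ z, 0 < a22 z := by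
    intro z
    have h1 : a11 z * a22 z = 1 + a12 z ^ 2 := by linarith [hdet z]
    have h2 : 0 < a11 z * a22 z := by rw [h1]; positivity
    exact (pos_iff_pos_of_mul_pos h2).mp (hpos z)
  have ht2 : ∀ z, 2 ≤ a11 z + a22 z := by
    intro z
    have h1 : a11 z * a22 z = 1 + a12 z ^ 2 := by linarith [hdet z]
    nlinarith [sq_nonneg (a11 z - a22 z), sq_nonneg (a12 z), hpos z, h22 z]
  set M : ℝ := a11 z₀ + a22 z₀ with hM
  have hM2 : 2 ≤ M := ht2 z₀
  have hMpos : 0 < M := by linarith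
  set lam : ℝ := 1 / (2 * M) with hlam
  have hlampos : 0 < lam := by positivity
  have hlamM : lam * M = 1 / 2 := by
    rw [hlam]; field_simp
  have hlam4 : lam ≤ 1 / 4 := by nlinarith
  have hlt : ∀ z, lam * (a11 z + a22 z) ≤ 1 / 2 := by
    intro z
    have := hz₀ z
    calc lam * (a11 z + a22 z) ≤ lam * M := mul_le_mul_of_nonneg_left this hlampos.le
      _ = 1 / 2 := hlamM
  -- the determinant of `a - lam`
  set D : ℝ × ℝ → ℝ := fun z => 1 - lam * (a11 z + a22 z) + lam ^ 2 with hD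
  have hDpos : ∀ z, 0 < D z := by
    intro z
    simp only [hD]
    nlinarith [hlt z, sq_nonneg lam]
  have sD : ContDiff ℝ ∞ D := by
    simp only [hD]
    exact (contDiff_const.sub (contDiff_const.mul st)).add contDiff_const
  have sδ : ContDiff ℝ ∞ (fun z => Real.sqrt (D z)) := sD.sqrt (fun z => (hDpos z).ne')
  have hδpos : ∀ z, 0 < Real.sqrt (D z) := fun z => Real.sqrt_pos.mpr (hDpos z)
  have hδsq : ∀ z, Real.sqrt (D z) ^ 2 = D z := fun z => Real.sq_sqrt (hDpos z).le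
  set τ : ℝ × ℝ → ℝ := fun z => a11 z + a22 z - 2 * lam + 2 * Real.sqrt (D z) with hτ
  have hτpos : ∀ z, 0 < τ z := by
    intro z
    simp only [hτ]
    linarith [ht2 z, hδpos z]
  have sτ : ContDiff ℝ ∞ τ := by
    simp only [hτ]
    exact (st.sub contDiff_const).add (contDiff_const.mul sδ)
  have sσ : ContDiff ℝ ∞ (fun z => Real.sqrt (τ z)) := sτ.sqrt (fun z => (hτpos z).ne')
  have hσpos : ∀ z, 0 < Real.sqrt (τ z) := fun z => Real.sqrt_pos.mpr (hτpos z)
  have hσsq : ∀ z, Real.sqrt (τ z) ^ 2 = τ z := fun z => Real.sq_sqrt (hτpos z).le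
  have pD : Per ω₁ ω₂ D :=
    ⟨fun z => by simp only [hD, p11.1 z, p22.1 z], fun z => by simp only [hD, p11.2 z, p22.2 z]⟩
  have pτ : Per ω₁ ω₂ τ :=
    ⟨fun z => by simp only [hτ, p11.1 z, p22.1 z, pD.1 z],
      fun z => by simp only [hτ, p11.2 z, p22.2 z, pD.2 z]⟩
  refine ⟨lam, fun z => (a11 z - lam + Real.sqrt (D z)) / Real.sqrt (τ z),
    fun z => a12 z / Real.sqrt (τ z),
    fun z => (a22 z - lam + Real.sqrt (D z)) / Real.sqrt (τ z), hlampos,
    ((s11.sub contDiff_const).add sδ).div sσ (fun z => (hσpos z).ne'),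
    s12.div sσ (fun z => (hσpos z).ne'),
    ((s22.sub contDiff_const).add sδ).div sσ (fun z => (hσpos z).ne'),
    ⟨fun z => by simp only [p11.1 z, pD.1 z, pτ.1 z], fun z => by simp only [p11.2 z, pD.2 z, pτ.2 z]⟩,
    ⟨fun z => by simp only [p12.1 z, pτ.1 z], fun z => by simp only [p12.2 z, pτ.2 z]⟩,
    ⟨fun z => by simp only [p22.1 z, pD.1 z, pτ.1 z], fun z => by simp only [p22.2 z, pD.2 z, pτ.2 z]⟩,
    ?_, ?_, ?_⟩
  · intro z
    have hσ := hσsq z
    have hδ := hδsq z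
    have hσne := (hσpos z).ne'
    have hτne := (hτpos z).ne'
    have hτz : τ z = a11 z + a22 z - 2 * lam + 2 * Real.sqrt (D z) := rfl
    have hDz : D z = 1 - lam * (a11 z + a22 z) + lam ^ 2 := rfl
    simp only [div_pow, hσ]
    rw [add_assoc, ← add_div]
    have key : ((a11 z - lam + Real.sqrt (D z)) ^ 2 + a12 z ^ 2) / τ z = a11 z - lam := by
      rw [div_eq_iff hτne, hτz]
      have h3 := hdet z
      rw [hDz] at hδ
      linear_combination hδ - h3
    rw [key]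
    ring
  · intro z
    have hσ := hσsq z
    have hσne := (hσpos z).ne'
    have hτne := (hτpos z).ne'
    have hτz : τ z = a11 z + a22 z - 2 * lam + 2 * Real.sqrt (D z) := rfl
    simp only []
    rw [div_mul_div_comm, div_mul_div_comm, ← pow_two, hσ, ← add_div, eq_comm,
      div_eq_iff hτne, hτz]
    ring
  · intro z
    have hσ := hσsq z
    have hδ := hδsq z
    have hσne := (hσpos z).ne'
    have hτne := (hτpos z).ne'
    have hτz : τ z = a11 z + a22 z - 2 * lam + 2 * Real.sqrt (D z) := rfl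
    have hDz : D z = 1 - lam * (a11 z + a22 z) + lam ^ 2 := rfl
    simp only [div_pow, hσ]
    rw [add_assoc, ← add_div]
    have key : (a12 z ^ 2 + (a22 z - lam + Real.sqrt (D z)) ^ 2) / τ z = a22 z - lam := by
      rw [div_eq_iff hτne, hτz]
      have h3 := hdet z
      rw [hDz] at hδ
      linear_combination hδ - h3
    rw [key]
    ring

end Vale.Agent.P205U
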