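import Vale.Agent.P205U.EllipticB
import Vale.Agent.P205U.SqrtMat

/-! # P205U : the elliptic equation `div (a ∇u) = Q_x - P_y`, `det a = 1` -/

namespace Vale.Agent.P205U

open scoped ContDiff
open Vale.Agent.P205T

/-- `exists_sqrt_decomp` + `exists_ellipticB` (rewrite the coefficient functions with `funext`). -/
theorem exists_elliptic (ω₁ ω₂ : ℝ × ℝ) (hω : ω₁.1 * ω₂.2 - ω₁.2 * ω₂.1 ≠ 0)
    {a11 a12 a22 P Q : ℝ × ℝ → ℝ} (s11 : ContDiff ℝ ∞ a11) (s12 : ContDiff ℝ ∞ a12)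
    (s22 : ContDiff ℝ ∞ a22) (sP : ContDiff ℝ ∞ P) (sQ : ContDiff ℝ ∞ Q)
    (p11 : Per ω₁ ω₂ a11) (p12 : Per ω₁ ω₂ a12) (p22 : Per ω₁ ω₂ a22)
    (pP : Per ω₁ ω₂ P) (pQ : Per ω₁ ω₂ Q)
    (hpos : ∀ z, 0 < a11 z) (hdet : ∀ z, a11 z * a22 z - a12 z ^ 2 = 1) :
    ∃ u : ℝ × ℝ → ℝ, ContDiff ℝ ∞ u ∧ Per ω₁ ω₂ u ∧ ∀ z,
      dX (fun w => a11 w * dX u w + a12 w * dY u w) z +
        dY (fun w => a12 w * dX u w + a22 w * dY u w) z = dX Q z - dY P z := by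
  obtain ⟨lam, b11, b12, b22, hlam, t11, t12, t22, q11, q12, q22, e11, e12, e22⟩ :=
    exists_sqrt_decomp hω s11 s12 s22 p11 p12 p22 hpos hdet
  obtain ⟨u, su, pu, hu⟩ := exists_ellipticB ω₁ ω₂ hω hlam t11 t12 t22 sP sQ q11 q12 q22 pP pQ
  refine ⟨u, su, pu, fun z => ?_⟩
  have f11 : a11 = fun w => lam + b11 w ^ 2 + b12 w ^ 2 := funext e11
  have f12 : a12 = fun w => b11 w * b12 w + b12 w * b22 w := funext e12
  have f22 : a22 = fun w => lam + b12 w ^ 2 + b22 w ^ 2 := funext e22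
  rw [f11, f12, f22]
  exact hu z

end Vale.Agent.P205U
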