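import Vale.Agent.P205U.SolveSeq
import Vale.Agent.P205T.FourierMain

/-! # P205U : the elliptic equation `div ((λ + B²) ∇u) = Q_x - P_y` on the torus -/

namespace Vale.Agent.P205U

open scoped ContDiff
open Vale.Agent.P205T

private lemma eq_evr_of_evs {Φ : Freq} {ρ : ℝ × ℝ → ℝ} {c : ℤ × ℤ → ℂ}
    (h : ∀ z, (ρ z : ℂ) = evs Φ c z) : ρ = evr Φ c := by
  funext z
  unfold evr
  rw [← h z, Complex.ofReal_re]

/-- `Φ = freqOf ω₁ ω₂ hω`; coefficients of `b11, b12, b22, P, Q` from `exists_fourier` (so each function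
is `evr Φ` of its coefficients); `f = Da Φ (coefficients of Q) - Db Φ (coefficients of P)`, `f 0 = 0`;
`û` from `exists_seq_solution`; `u = evr Φ û`.  `dX u = evr (Da û)`, `dY u = evr (Db û)` (`dX_evr`,
`dY_evr`), the first flux component is `evr (gJ1 ..)` (`evr_cvs`, `evr_add`, `evr_real_mul`, `ring`),
rewrite the function under `dX` with `funext`, then `dX_evr` again.  Periodicity: `evs_add_period`,
`freqOf_period₁`, `freqOf_period₂`. -/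
theorem exists_ellipticB (ω₁ ω₂ : ℝ × ℝ) (hω : ω₁.1 * ω₂.2 - ω₁.2 * ω₂.1 ≠ 0) {lam : ℝ}
    (hlam : 0 < lam) {b11 b12 b22 P Q : ℝ × ℝ → ℝ}
    (s11 : ContDiff ℝ ∞ b11) (s12 : ContDiff ℝ ∞ b12) (s22 : ContDiff ℝ ∞ b22)
    (sP : ContDiff ℝ ∞ P) (sQ : ContDiff ℝ ∞ Q)
    (p11 : Per ω₁ ω₂ b11) (p12 : Per ω₁ ω₂ b12) (p22 : Per ω₁ ω₂ b22)
    (pP : Per ω₁ ω₂ P) (pQ : Per ω₁ ω₂ Q) :
    ∃ u : ℝ × ℝ → ℝ, ContDiff ℝ ∞ u ∧ Per ω₁ ω₂ u ∧ ∀ z,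
      dX (fun w => (lam + b11 w ^ 2 + b12 w ^ 2) * dX u w +
          (b11 w * b12 w + b12 w * b22 w) * dY u w) z +
        dY (fun w => (b11 w * b12 w + b12 w * b22 w) * dX u w +
          (lam + b12 w ^ 2 + b22 w ^ 2) * dY u w) z = dX Q z - dY P z := by
  set Φ : Freq := freqOf ω₁ ω₂ hω with hΦ
  obtain ⟨c11, r11, h11, e11⟩ := exists_fourier ω₁ ω₂ hω b11 s11 p11
  obtain ⟨c12, r12, h12, e12⟩ := exists_fourier ω₁ ω₂ hω b12 s12 p12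
  obtain ⟨c22, r22, h22, e22⟩ := exists_fourier ω₁ ω₂ hω b22 s22 p22
  obtain ⟨cP, rP, _, eP⟩ := exists_fourier ω₁ ω₂ hω P sP pP
  obtain ⟨cQ, rQ, _, eQ⟩ := exists_fourier ω₁ ω₂ hω Q sQ pQ
  have E11 : b11 = evr Φ c11 := eq_evr_of_evs e11
  have E12 : b12 = evr Φ c12 := eq_evr_of_evs e12
  have E22 : b22 = evr Φ c22 := eq_evr_of_evs e22
  have EP : P = evr Φ cP := eq_evr_of_evs eP
  have EQ : Q = evr Φ cQ := eq_evr_of_evs eQ
  have hf : RD (fun k => Da Φ cQ k - Db Φ cP k) := RD.sub rQ.Da rP.Db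
  have hf0 : (fun k => Da Φ cQ k - Db Φ cP k) 0 = 0 := by
    simp [Da, Db]
  obtain ⟨u, hu, hsol⟩ := exists_seq_solution Φ hlam r11 r12 r22 h11 h12 h22 hf hf0
  have hDa : RD (Da Φ u) := hu.Da
  have hDb : RD (Db Φ u) := hu.Db
  have rW1 : RD (gW1 Φ c11 c12 u) := RD_gW1 Φ r11 r12 hu
  have rW2 : RD (gW2 Φ c12 c22 u) := RD_gW2 Φ r12 r22 hu
  have rJ1 : RD (gJ1 Φ lam c11 c12 c22 u) := RD_gJ1 Φ lam r11 r12 r22 hu
  have rJ2 : RD (gJ2 Φ lam c11 c12 c22 u) := RD_gJ2 Φ lam r11 r12 r22 hu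
  have hW1 : ∀ w, evr Φ (gW1 Φ c11 c12 u) w
      = evr Φ c11 w * evr Φ (Da Φ u) w + evr Φ c12 w * evr Φ (Db Φ u) w := by
    intro w
    have h := evr_add (Φ := Φ) (RD_cvs r11 hDa) (RD_cvs r12 hDb) w
    rw [evr_cvs r11 h11 hDa, evr_cvs r12 h12 hDb] at h
    exact h
  have hW2 : ∀ w, evr Φ (gW2 Φ c12 c22 u) w
      = evr Φ c12 w * evr Φ (Da Φ u) w + evr Φ c22 w * evr Φ (Db Φ u) w := by
    intro w
    have h := evr_add (Φ := Φ) (RD_cvs r12 hDa) (RD_cvs r22 hDb) w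
    rw [evr_cvs r12 h12 hDa, evr_cvs r22 h22 hDb] at h
    exact h
  have hJ1 : ∀ w, evr Φ (gJ1 Φ lam c11 c12 c22 u) w
      = lam * evr Φ (Da Φ u) w + evr Φ c11 w * evr Φ (gW1 Φ c11 c12 u) w
        + evr Φ c12 w * evr Φ (gW2 Φ c12 c22 u) w := by
    intro w
    have hA : RD (fun k => (lam : ℂ) * Da Φ u k) := hDa.const_mul _
    have h1 := evr_add (Φ := Φ) hA (RD_cvs r11 rW1) w
    have h2 := evr_add (Φ := Φ) (hA.add (RD_cvs r11 rW1)) (RD_cvs r12 rW2) w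
    rw [h1, evr_real_mul hDa, evr_cvs r11 h11 rW1, evr_cvs r12 h12 rW2] at h2
    exact h2
  have hJ2 : ∀ w, evr Φ (gJ2 Φ lam c11 c12 c22 u) w
      = lam * evr Φ (Db Φ u) w + evr Φ c12 w * evr Φ (gW1 Φ c11 c12 u) w
        + evr Φ c22 w * evr Φ (gW2 Φ c12 c22 u) w := by
    intro w
    have hA : RD (fun k => (lam : ℂ) * Db Φ u k) := hDb.const_mul _
    have h1 := evr_add (Φ := Φ) hA (RD_cvs r12 rW1) w
    have h2 := evr_add (Φ := Φ) (hA.add (RD_cvs r12 rW1)) (RD_cvs r22 rW2) w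
    rw [h1, evr_real_mul hDb, evr_cvs r12 h12 rW1, evr_cvs r22 h22 rW2] at h2
    exact h2
  refine ⟨evr Φ u, contDiff_evr hu, ⟨fun z => ?_, fun z => ?_⟩, fun z => ?_⟩
  · unfold evr
    rw [evs_add_period (fun k => ⟨k.1, freqOf_period₁ ω₁ ω₂ hω k⟩) z]
  · unfold evr
    rw [evs_add_period (fun k => ⟨k.2, freqOf_period₂ ω₁ ω₂ hω k⟩) z]
  · have F1 : (fun w => (lam + b11 w ^ 2 + b12 w ^ 2) * dX (evr Φ u) w +
          (b11 w * b12 w + b12 w * b22 w) * dY (evr Φ u) w)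
        = evr Φ (gJ1 Φ lam c11 c12 c22 u) := by
      funext w
      rw [dX_evr hu, dY_evr hu, hJ1, hW1, hW2, E11, E12, E22]
      ring
    have F2 : (fun w => (b11 w * b12 w + b12 w * b22 w) * dX (evr Φ u) w +
          (lam + b12 w ^ 2 + b22 w ^ 2) * dY (evr Φ u) w)
        = evr Φ (gJ2 Φ lam c11 c12 c22 u) := by
      funext w
      rw [dX_evr hu, dY_evr hu, hJ2, hW1, hW2, E11, E12, E22]
      ring
    rw [F1, F2, dX_evr rJ1, dY_evr rJ2, EQ, EP, dX_evr rQ, dY_evr rP,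
      ← evr_add rJ1.Da rJ2.Db, ← evr_sub rQ.Da rP.Db]
    congr 1
    funext k
    exact hsol k

end Vale.Agent.P205U
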