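import Vale.Agent.P205U.Coframe
import Vale.Agent.P205U.Conformal
import Vale.Agent.P205U.HolonomyG
import Vale.Agent.P205U.Elliptic

/-! # P205U : a flat conformal chart for the metric of a periodic coframe -/

namespace Vale.Agent.P205U

open scoped ContDiff
open Vale.Agent.P205T

/-- Assembly.
* `u` from `exists_elliptic` with `a11 = (A₂² + B₂²)/Δ`, `a12 = -(A₁ A₂ + B₁ B₂)/Δ`,
  `a22 = (A₁² + B₁²)/Δ` (`Δ = dlt A₁ A₂ B₁ B₂`; determinant one by the Lagrange identity),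
  `P = -cnP`, `Q = -cnQ`.
* rescaled coframe `scl u A₁, ...`; its connection form is closed (`closed_cn_scl`);
  `θ = prim (cnP (scl ..)) (cnQ (scl ..))` (`hasFDerivAt_prim`, `contDiff_prim`, then
  `dX_eq_of_hasFDerivAt`, `dY_eq_of_hasFDerivAt`).
* `X = prim (roX1 θ ..) (roX2 θ ..)`, `Y = prim (roY1 θ ..) (roY2 θ ..)` (`closed_roX`, `closed_roY`).
* `translational_holonomy'` with `η₁ = (X ω₁, Y ω₁)`, `η₂ = (X ω₂, Y ω₂)` (`prim_zero`).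
* metric: `metric_ro`, unfold `scl`; determinant: `det_ro`, `dlt_scl`. -/
theorem exists_flat_chart (ω₁ ω₂ : ℝ × ℝ) (hω : ω₁.1 * ω₂.2 - ω₁.2 * ω₂.1 ≠ 0)
    {A₁ A₂ B₁ B₂ : ℝ × ℝ → ℝ} (hA₁ : ContDiff ℝ ∞ A₁) (hA₂ : ContDiff ℝ ∞ A₂)
    (hB₁ : ContDiff ℝ ∞ B₁) (hB₂ : ContDiff ℝ ∞ B₂)
    (pA₁ : Per ω₁ ω₂ A₁) (pA₂ : Per ω₁ ω₂ A₂) (pB₁ : Per ω₁ ω₂ B₁) (pB₂ : Per ω₁ ω₂ B₂)
    (hd : ∀ z, 0 < dlt A₁ A₂ B₁ B₂ z) :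
    ∃ (u X Y x₁ x₂ y₁ y₂ : ℝ × ℝ → ℝ) (η₁ η₂ : ℝ × ℝ),
      ContDiff ℝ ∞ u ∧ Per ω₁ ω₂ u ∧ ContDiff ℝ ∞ X ∧ ContDiff ℝ ∞ Y ∧
      (∀ z, HasFDerivAt X (frm (x₁ z) (x₂ z)) z) ∧ (∀ z, HasFDerivAt Y (frm (y₁ z) (y₂ z)) z) ∧
      (∀ z, x₁ z * y₂ z - x₂ z * y₁ z ≠ 0) ∧
      (∀ z, X (z + ω₁) = X z + η₁.1) ∧ (∀ z, Y (z + ω₁) = Y z + η₁.2) ∧
      (∀ z, X (z + ω₂) = X z + η₂.1) ∧ (∀ z, Y (z + ω₂) = Y z + η₂.2) ∧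
      ∀ z v w : ℝ × ℝ,
        (x₁ z * v.1 + x₂ z * v.2) * (x₁ z * w.1 + x₂ z * w.2) +
          (y₁ z * v.1 + y₂ z * v.2) * (y₁ z * w.1 + y₂ z * w.2) =
        Real.exp (u z) ^ 2 * ((A₁ z * v.1 + A₂ z * v.2) * (A₁ z * w.1 + A₂ z * w.2) +
          (B₁ z * v.1 + B₂ z * v.2) * (B₁ z * w.1 + B₂ z * w.2)) := by
  have hd' : ∀ z, dlt A₁ A₂ B₁ B₂ z ≠ 0 := fun z => (hd z).ne'
  have sD : ContDiff ℝ ∞ (dlt A₁ A₂ B₁ B₂) := by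
    show ContDiff ℝ ∞ (fun z => A₁ z * B₂ z - A₂ z * B₁ z)
    exact (hA₁.mul hB₂).sub (hA₂.mul hB₁)
  have pD : Per ω₁ ω₂ (dlt A₁ A₂ B₁ B₂) := by
    refine ⟨fun z => ?_, fun z => ?_⟩
    · simp only [dlt, pA₁.1 z, pA₂.1 z, pB₁.1 z, pB₂.1 z]
    · simp only [dlt, pA₁.2 z, pA₂.2 z, pB₁.2 z, pB₂.2 z]
  have s11 : ContDiff ℝ ∞ (fun w => (A₂ w ^ 2 + B₂ w ^ 2) / dlt A₁ A₂ B₁ B₂ w) :=
    ((hA₂.pow 2).add (hB₂.pow 2)).div sD hd'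
  have s12 : ContDiff ℝ ∞ (fun w => -(A₁ w * A₂ w + B₁ w * B₂ w) / dlt A₁ A₂ B₁ B₂ w) :=
    (((hA₁.mul hA₂).add (hB₁.mul hB₂)).neg).div sD hd'
  have s22 : ContDiff ℝ ∞ (fun w => (A₁ w ^ 2 + B₁ w ^ 2) / dlt A₁ A₂ B₁ B₂ w) :=
    ((hA₁.pow 2).add (hB₁.pow 2)).div sD hd'
  have p11 : Per ω₁ ω₂ (fun w => (A₂ w ^ 2 + B₂ w ^ 2) / dlt A₁ A₂ B₁ B₂ w) := by
    refine ⟨fun z => ?_, fun z => ?_⟩
    · simp only [pD.1 z, pA₂.1 z, pB₂.1 z]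
    · simp only [pD.2 z, pA₂.2 z, pB₂.2 z]
  have p12 : Per ω₁ ω₂ (fun w => -(A₁ w * A₂ w + B₁ w * B₂ w) / dlt A₁ A₂ B₁ B₂ w) := by
    refine ⟨fun z => ?_, fun z => ?_⟩
    · simp only [pD.1 z, pA₁.1 z, pA₂.1 z, pB₁.1 z, pB₂.1 z]
    · simp only [pD.2 z, pA₁.2 z, pA₂.2 z, pB₁.2 z, pB₂.2 z]
  have p22 : Per ω₁ ω₂ (fun w => (A₁ w ^ 2 + B₁ w ^ 2) / dlt A₁ A₂ B₁ B₂ w) := by
    refine ⟨fun z => ?_, fun z => ?_⟩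
    · simp only [pD.1 z, pA₁.1 z, pB₁.1 z]
    · simp only [pD.2 z, pA₁.2 z, pB₁.2 z]
  have sP : ContDiff ℝ ∞ (fun w => -cnP A₁ A₂ B₁ B₂ w) :=
    (contDiff_cnP hA₁ hA₂ hB₁ hB₂ hd').neg
  have sQ : ContDiff ℝ ∞ (fun w => -cnQ A₁ A₂ B₁ B₂ w) :=
    (contDiff_cnQ hA₁ hA₂ hB₁ hB₂ hd').neg
  have pP : Per ω₁ ω₂ (fun w => -cnP A₁ A₂ B₁ B₂ w) := by
    have h := per_cnP pA₁ pA₂ pB₁ pB₂
    exact ⟨fun z => by simp only [h.1 z], fun z => by simp only [h.2 z]⟩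
  have pQ : Per ω₁ ω₂ (fun w => -cnQ A₁ A₂ B₁ B₂ w) := by
    have h := per_cnQ pA₁ pA₂ pB₁ pB₂
    exact ⟨fun z => by simp only [h.1 z], fun z => by simp only [h.2 z]⟩
  have hpos : ∀ z, 0 < (fun w => (A₂ w ^ 2 + B₂ w ^ 2) / dlt A₁ A₂ B₁ B₂ w) z := by
    intro z
    refine div_pos ?_ (hd z)
    by_contra hneg
    have h0 : A₂ z ^ 2 + B₂ z ^ 2 = 0 :=
      le_antisymm (not_lt.mp hneg) (add_nonneg (sq_nonneg _) (sq_nonneg _))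
    have hA0 : A₂ z = 0 := by nlinarith [sq_nonneg (A₂ z), sq_nonneg (B₂ z)]
    have hB0 : B₂ z = 0 := by nlinarith [sq_nonneg (A₂ z), sq_nonneg (B₂ z)]
    apply hd' z
    simp only [dlt, hA0, hB0]
    ring
  have hdet : ∀ z, (fun w => (A₂ w ^ 2 + B₂ w ^ 2) / dlt A₁ A₂ B₁ B₂ w) z *
      (fun w => (A₁ w ^ 2 + B₁ w ^ 2) / dlt A₁ A₂ B₁ B₂ w) z -
      (fun w => -(A₁ w * A₂ w + B₁ w * B₂ w) / dlt A₁ A₂ B₁ B₂ w) z ^ 2 = 1 := by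
    intro z
    have h := hd' z
    show (A₂ z ^ 2 + B₂ z ^ 2) / dlt A₁ A₂ B₁ B₂ z * ((A₁ z ^ 2 + B₁ z ^ 2) / dlt A₁ A₂ B₁ B₂ z) -
      (-(A₁ z * A₂ z + B₁ z * B₂ z) / dlt A₁ A₂ B₁ B₂ z) ^ 2 = 1
    have key : (A₂ z ^ 2 + B₂ z ^ 2) * (A₁ z ^ 2 + B₁ z ^ 2) - (A₁ z * A₂ z + B₁ z * B₂ z) ^ 2
        = dlt A₁ A₂ B₁ B₂ z ^ 2 := by
      simp only [dlt]
      ring
    have h2 : dlt A₁ A₂ B₁ B₂ z ^ 2 ≠ 0 := pow_ne_zero 2 h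
    rw [div_mul_div_comm, div_pow, ← sq, ← sub_div, neg_sq, key, div_self h2]
  obtain ⟨u, su, pu, hpde⟩ :=
    exists_elliptic ω₁ ω₂ hω s11 s12 s22 sP sQ p11 p12 p22 pP pQ hpos hdet
  have sA₁ := contDiff_scl su hA₁
  have sA₂ := contDiff_scl su hA₂
  have sB₁ := contDiff_scl su hB₁
  have sB₂ := contDiff_scl su hB₂
  have qA₁ := per_scl pu pA₁
  have qA₂ := per_scl pu pA₂
  have qB₁ := per_scl pu pB₁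
  have qB₂ := per_scl pu pB₂
  have hd2 : ∀ z, dlt (scl u A₁) (scl u A₂) (scl u B₁) (scl u B₂) z ≠ 0 := by
    intro z
    rw [dlt_scl]
    exact mul_ne_zero (pow_ne_zero 2 (Real.exp_pos _).ne') (hd' z)
  have hcl := closed_cn_scl su hA₁ hA₂ hB₁ hB₂ hd' hpde
  have sU₁ := contDiff_cnP sA₁ sA₂ sB₁ sB₂ hd2
  have sU₂ := contDiff_cnQ sA₁ sA₂ sB₁ sB₂ hd2
  have pU₁ := per_cnP qA₁ qA₂ qB₁ qB₂
  have pU₂ := per_cnQ qA₁ qA₂ qB₁ qB₂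
  set θ : ℝ × ℝ → ℝ := prim (cnP (scl u A₁) (scl u A₂) (scl u B₁) (scl u B₂))
    (cnQ (scl u A₁) (scl u A₂) (scl u B₁) (scl u B₂)) with hθdef
  have hθ := hasFDerivAt_prim sU₁ sU₂ hcl
  have sθ : ContDiff ℝ ∞ θ := contDiff_prim sU₁ sU₂ hcl
  have h1 : ∀ z, dX θ z = cnP (scl u A₁) (scl u A₂) (scl u B₁) (scl u B₂) z :=
    fun z => dX_eq_of_hasFDerivAt (hθ z)
  have h2 : ∀ z, dY θ z = cnQ (scl u A₁) (scl u A₂) (scl u B₁) (scl u B₂) z :=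
    fun z => dY_eq_of_hasFDerivAt (hθ z)
  have sX1 := contDiff_roX1 sA₁ sB₁ sθ
  have sX2 := contDiff_roX2 sA₂ sB₂ sθ
  have sY1 := contDiff_roY1 sA₁ sB₁ sθ
  have sY2 := contDiff_roY2 sA₂ sB₂ sθ
  have cX := closed_roX sA₁ sA₂ sB₁ sB₂ hd2 sθ h1 h2
  have cY := closed_roY sA₁ sA₂ sB₁ sB₂ hd2 sθ h1 h2
  have hX := hasFDerivAt_prim sX1 sX2 cX
  have hY := hasFDerivAt_prim sY1 sY2 cY
  obtain ⟨t1, t2, t3, t4⟩ :=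
    translational_holonomy' hω pU₁ pU₂ qA₁ qA₂ qB₁ qB₂ hd2 hθ hX hY
  simp only [prim_zero, sub_zero] at t1 t2 t3 t4
  refine ⟨u, prim (roX1 θ (scl u A₁) (scl u B₁)) (roX2 θ (scl u A₂) (scl u B₂)),
    prim (roY1 θ (scl u A₁) (scl u B₁)) (roY2 θ (scl u A₂) (scl u B₂)),
    roX1 θ (scl u A₁) (scl u B₁), roX2 θ (scl u A₂) (scl u B₂),
    roY1 θ (scl u A₁) (scl u B₁), roY2 θ (scl u A₂) (scl u B₂),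
    (prim (roX1 θ (scl u A₁) (scl u B₁)) (roX2 θ (scl u A₂) (scl u B₂)) ω₁,
      prim (roY1 θ (scl u A₁) (scl u B₁)) (roY2 θ (scl u A₂) (scl u B₂)) ω₁),
    (prim (roX1 θ (scl u A₁) (scl u B₁)) (roX2 θ (scl u A₂) (scl u B₂)) ω₂,
      prim (roY1 θ (scl u A₁) (scl u B₁)) (roY2 θ (scl u A₂) (scl u B₂)) ω₂),
    su, pu, contDiff_prim sX1 sX2 cX, contDiff_prim sY1 sY2 cY, hX, hY, ?_, t1, t2, t3, t4, ?_⟩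
  · intro z
    rw [det_ro]
    exact hd2 z
  · intro z v w
    rw [metric_ro]
    simp only [scl]
    ring

end Vale.Agent.P205U
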