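import Vale.Agent.P205U.HSpace

/-! # P205U : shifts and convolution operators on `HH` -/

namespace Vale.Agent.P205U

open Vale.Agent.P205T

private lemma summable_shift (m : ℤ × ℤ) (ξ : HH) : Summable fun k => ‖ξ (k - m)‖ ^ 2 :=
  (Equiv.subRight m).summable_iff.2 (HH.summable_sq ξ)

private noncomputable def shiftLin (m : ℤ × ℤ) : HH →ₗ[ℂ] HH where
  toFun ξ := mkH (fun k => ξ (k - m)) (summable_shift m ξ)
  map_add' ξ η := by
    ext k
    simp [lp.coeFn_add]
  map_smul' c ξ := by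
    ext k
    simp [lp.coeFn_smul]

private lemma norm_shiftLin (m : ℤ × ℤ) (ξ : HH) : ‖shiftLin m ξ‖ = ‖ξ‖ := by
  have h : ‖shiftLin m ξ‖ ^ 2 = ‖ξ‖ ^ 2 := by
    rw [HH.norm_sq, HH.norm_sq]
    exact (Equiv.subRight m).tsum_eq (fun k => ‖ξ k‖ ^ 2)
  exact (pow_left_inj₀ (norm_nonneg _) (norm_nonneg _) (by norm_num)).1 h

/-- The shift `(shiftH m ξ) k = ξ (k - m)` (an isometry; build it with `LinearMap.mkContinuous`
or as a `LinearIsometry`). -/
noncomputable def shiftH (m : ℤ × ℤ) : HH →L[ℂ] HH :=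
  (shiftLin m).mkContinuous 1 (fun ξ => by rw [norm_shiftLin, one_mul])

lemma shiftH_apply (m : ℤ × ℤ) (ξ : HH) (k : ℤ × ℤ) : shiftH m ξ k = ξ (k - m) := rfl

lemma norm_shiftH (m : ℤ × ℤ) (ξ : HH) : ‖shiftH m ξ‖ = ‖ξ‖ := norm_shiftLin m ξ

lemma opNorm_shiftH_le (m : ℤ × ℤ) : ‖shiftH m‖ ≤ 1 :=
  ContinuousLinearMap.opNorm_le_bound _ zero_le_one (fun ξ => by rw [norm_shiftH, one_mul])

lemma inner_shiftH (m : ℤ × ℤ) (ξ η : HH) :
    inner ℂ (shiftH m ξ) η = inner ℂ ξ (shiftH (-m) η) := by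
  rw [HH.inner_eq, HH.inner_eq]
  rw [← (Equiv.addRight m).tsum_eq (fun k => η k * (starRingEnd ℂ) (shiftH m ξ k))]
  refine tsum_congr fun k => ?_
  simp only [Equiv.coe_addRight, shiftH_apply, add_sub_cancel_right, sub_neg_eq_add]

/-- Convolution by a summable family: an absolutely convergent series of operators. -/
noncomputable def cvH (b : ℤ × ℤ → ℂ) : HH →L[ℂ] HH := ∑' m, b m • shiftH m

variable {b : ℤ × ℤ → ℂ}

lemma summable_cvH (hb : Summable fun k => ‖b k‖) : Summable fun m => b m • shiftH m := by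
  refine Summable.of_norm_bounded hb (fun m => ?_)
  rw [norm_smul]
  calc ‖b m‖ * ‖shiftH m‖ ≤ ‖b m‖ * 1 :=
        mul_le_mul_of_nonneg_left (opNorm_shiftH_le m) (norm_nonneg _)
    _ = ‖b m‖ := mul_one _

lemma cvH_eq_tsum (hb : Summable fun k => ‖b k‖) (ξ : HH) :
    cvH b ξ = ∑' m, b m • shiftH m ξ := by
  have h := (ContinuousLinearMap.apply ℂ HH ξ).map_tsum (summable_cvH hb)
  simpa [cvH] using h

lemma summable_cvH_apply (hb : Summable fun k => ‖b k‖) (ξ : HH) :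
    Summable fun m => b m • shiftH m ξ := by
  have h := (ContinuousLinearMap.apply ℂ HH ξ).summable (summable_cvH hb)
  simpa using h

lemma cvH_apply (hb : Summable fun k => ‖b k‖) (ξ : HH) (k : ℤ × ℤ) :
    cvH b ξ k = ∑' m, b m * ξ (k - m) := by
  rw [cvH_eq_tsum hb]
  have h := (lp.evalCLM ℂ (fun _ : ℤ × ℤ => ℂ) 2 k).map_tsum (summable_cvH_apply hb ξ)
  exact h

lemma norm_cvH_le (hb : Summable fun k => ‖b k‖) (ξ : HH) :
    ‖cvH b ξ‖ ≤ (∑' m, ‖b m‖) * ‖ξ‖ := by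
  rw [cvH_eq_tsum hb, ← tsum_mul_right]
  have hs : Summable fun m => ‖b m • shiftH m ξ‖ := by
    simpa [norm_smul, norm_shiftH] using hb.mul_right ‖ξ‖
  refine (norm_tsum_le_tsum_norm hs).trans (le_of_eq ?_)
  refine tsum_congr fun m => ?_
  rw [norm_smul, norm_shiftH]

/-- Convolution by a Hermitian family (a real function) is symmetric. -/
lemma inner_cvH (hb : Summable fun k => ‖b k‖) (hh : Herm b) (ξ η : HH) :
    inner ℂ (cvH b ξ) η = inner ℂ ξ (cvH b η) := by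
  have h2 : inner ℂ ξ (cvH b η) = ∑' m, b m * inner ℂ ξ (shiftH m η) := by
    rw [cvH_eq_tsum hb]
    have h := (innerSL ℂ ξ).map_tsum (summable_cvH_apply hb η)
    simpa [inner_smul_right] using h
  have h1 : inner ℂ (cvH b ξ) η = ∑' m, (starRingEnd ℂ) (b m) * inner ℂ (shiftH m ξ) η := by
    rw [← inner_conj_symm, cvH_eq_tsum hb]
    have h := (innerSL ℂ η).map_tsum (summable_cvH_apply hb ξ)
    have h' : inner ℂ η (∑' m, b m • shiftH m ξ) = ∑' m, b m * inner ℂ η (shiftH m ξ) := by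
      simpa [inner_smul_right] using h
    rw [h', Complex.conj_tsum]
    refine tsum_congr fun m => ?_
    rw [map_mul, inner_conj_symm]
  rw [h1, h2, ← (Equiv.neg (ℤ × ℤ)).tsum_eq (fun m => b m * inner ℂ ξ (shiftH m η))]
  refine tsum_congr fun m => ?_
  simp only [Equiv.neg_apply]
  rw [hh m, inner_shiftH]

end Vale.Agent.P205U
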