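import Vale.Agent.P205U.HSpace

/-! # P205U : bounded multipliers on `HH` -/

namespace Vale.Agent.P205U

open Vale.Agent.P205T

private lemma summable_mul_sq {s : ℤ × ℤ → ℂ} {C : ℝ} (hs : ∀ k, ‖s k‖ ≤ C) (ξ : HH) :
    Summable fun k => ‖s k * ξ k‖ ^ 2 := by
  refine Summable.of_nonneg_of_le (fun k => by positivity) (fun k => ?_)
    ((HH.summable_sq ξ).mul_left (C ^ 2))
  rw [norm_mul, mul_pow]
  have h : ‖s k‖ ^ 2 ≤ C ^ 2 := pow_le_pow_left₀ (norm_nonneg _) (hs k) 2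
  exact mul_le_mul_of_nonneg_right h (by positivity)

private lemma bound_nonneg {s : ℤ × ℤ → ℂ} {C : ℝ} (hs : ∀ k, ‖s k‖ ≤ C) : 0 ≤ C :=
  le_trans (norm_nonneg _) (hs (0, 0))

/-- the linear map underlying the multiplier -/
private noncomputable def muLin (s : ℤ × ℤ → ℂ) (C : ℝ) (hs : ∀ k, ‖s k‖ ≤ C) : HH →ₗ[ℂ] HH where
  toFun ξ := mkH (fun k => s k * ξ k) (summable_mul_sq hs ξ)
  map_add' ξ η := by
    refine lp.ext (funext fun k => ?_)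
    show s k * (ξ + η : HH) k = s k * ξ k + s k * η k
    rw [lp.coeFn_add, Pi.add_apply]
    ring
  map_smul' c ξ := by
    refine lp.ext (funext fun k => ?_)
    show s k * (c • ξ : HH) k = c * (s k * ξ k)
    rw [lp.coeFn_smul, Pi.smul_apply, smul_eq_mul]
    ring

private lemma muLin_apply (s : ℤ × ℤ → ℂ) (C : ℝ) (hs : ∀ k, ‖s k‖ ≤ C) (ξ : HH) (k : ℤ × ℤ) :
    muLin s C hs ξ k = s k * ξ k := rfl

private lemma muLin_norm (s : ℤ × ℤ → ℂ) (C : ℝ) (hs : ∀ k, ‖s k‖ ≤ C) (ξ : HH) :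
    ‖muLin s C hs ξ‖ ≤ C * ‖ξ‖ := by
  refine HH.norm_le_of_forall_le (bound_nonneg hs) (fun k => ?_)
  rw [muLin_apply, norm_mul]
  exact mul_le_mul_of_nonneg_right (hs k) (norm_nonneg _)

open Classical in
/-- The multiplier with symbol `s` (zero if `s` is unbounded).  Suggested:
`if h : ∃ C, ∀ k, ‖s k‖ ≤ C then LinearMap.mkContinuous ... else 0`. -/
noncomputable def muH (s : ℤ × ℤ → ℂ) : HH →L[ℂ] HH :=
  if h : ∃ C : ℝ, ∀ k, ‖s k‖ ≤ C then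
    (muLin s h.choose h.choose_spec).mkContinuous h.choose (muLin_norm s h.choose h.choose_spec)
  else 0

variable {s t : ℤ × ℤ → ℂ} {C D : ℝ}

lemma muH_apply (hs : ∀ k, ‖s k‖ ≤ C) (ξ : HH) (k : ℤ × ℤ) : muH s ξ k = s k * ξ k := by
  have h : ∃ C : ℝ, ∀ k, ‖s k‖ ≤ C := ⟨C, hs⟩
  unfold muH
  rw [dif_pos h, LinearMap.mkContinuous_apply, muLin_apply]

lemma norm_muH_le (hs : ∀ k, ‖s k‖ ≤ C) (ξ : HH) : ‖muH s ξ‖ ≤ C * ‖ξ‖ := by
  refine HH.norm_le_of_forall_le (bound_nonneg hs) (fun k => ?_)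
  rw [muH_apply hs, norm_mul]
  exact mul_le_mul_of_nonneg_right (hs k) (norm_nonneg _)

lemma muH_comm (hs : ∀ k, ‖s k‖ ≤ C) (ht : ∀ k, ‖t k‖ ≤ D) (ξ : HH) :
    muH s (muH t ξ) = muH t (muH s ξ) := by
  refine lp.ext (funext fun k => ?_)
  rw [muH_apply hs, muH_apply ht, muH_apply ht, muH_apply hs]
  ring

lemma inner_muH (hs : ∀ k, ‖s k‖ ≤ C) (hreal : ∀ k, (starRingEnd ℂ) (s k) = s k) (ξ η : HH) :
    inner ℂ (muH s ξ) η = inner ℂ ξ (muH s η) := by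
  rw [HH.inner_eq, HH.inner_eq]
  refine tsum_congr (fun k => ?_)
  rw [muH_apply hs, muH_apply hs, map_mul, hreal k]
  ring

end Vale.Agent.P205U
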