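import Vale.Agent.P205T.SeriesA

/-! # P205U : the Hilbert space `HH = ℓ²(ℤ²)` -/

namespace Vale.Agent.P205U

open Vale.Agent.P205T

/-- `ℓ²(ℤ × ℤ)`. -/
noncomputable abbrev HH := lp (fun _ : ℤ × ℤ => ℂ) 2

lemma HH.summable_sq (ξ : HH) : Summable fun k => ‖ξ k‖ ^ 2 := by
  have h := lp.memℓp ξ
  have h2 := (memℓp_gen_iff (by norm_num : 0 < (2 : ENNReal).toReal)).1 h
  simpa using h2

lemma HH.norm_sq (ξ : HH) : ‖ξ‖ ^ 2 = ∑' k, ‖ξ k‖ ^ 2 := by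
  have h := lp.norm_rpow_eq_tsum (by norm_num : 0 < (2 : ENNReal).toReal) ξ
  simpa using h

lemma HH.norm_apply_le (ξ : HH) (k : ℤ × ℤ) : ‖ξ k‖ ≤ ‖ξ‖ :=
  lp.norm_apply_le_norm (by norm_num) ξ k

lemma HH.inner_eq (ξ η : HH) : inner ℂ ξ η = ∑' k, η k * (starRingEnd ℂ) (ξ k) := by
  rw [lp.inner_eq_tsum]
  rfl

lemma HH.summable_inner (ξ η : HH) : Summable fun k => η k * (starRingEnd ℂ) (ξ k) := by
  have h := lp.summable_inner (𝕜 := ℂ) ξ η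
  exact h

/-- Constructor. -/
noncomputable def mkH (c : ℤ × ℤ → ℂ) (h : Summable fun k => ‖c k‖ ^ 2) : HH :=
  ⟨c, by
    refine (memℓp_gen_iff (by norm_num : 0 < (2 : ENNReal).toReal)).2 ?_
    simpa using h⟩

@[simp] lemma mkH_apply (c : ℤ × ℤ → ℂ) (h : Summable fun k => ‖c k‖ ^ 2) (k : ℤ × ℤ) :
    mkH c h k = c k := rfl

lemma summable_sq_of_summable {c : ℤ × ℤ → ℂ} (h : Summable fun k => ‖c k‖) :
    Summable fun k => ‖c k‖ ^ 2 := by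
  have h2 := h.mul_left (∑' k, ‖c k‖)
  refine Summable.of_nonneg_of_le (fun k => by positivity) (fun k => ?_) h2
  have h3 : ‖c k‖ ≤ ∑' k, ‖c k‖ := h.le_tsum k (fun j _ => norm_nonneg _)
  calc ‖c k‖ ^ 2 = ‖c k‖ * ‖c k‖ := by ring
    _ ≤ (∑' k, ‖c k‖) * ‖c k‖ := mul_le_mul_of_nonneg_right h3 (norm_nonneg _)

/-- The `ℓ²` norm is at most the `ℓ¹` norm. -/
lemma norm_mkH_le_tsum {c : ℤ × ℤ → ℂ} (h : Summable fun k => ‖c k‖) :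
    ‖mkH c (summable_sq_of_summable h)‖ ≤ ∑' k, ‖c k‖ := by
  have hS : 0 ≤ ∑' k, ‖c k‖ := tsum_nonneg (fun k => norm_nonneg _)
  refine abs_le_of_sq_le_sq' ?_ hS |>.2
  rw [HH.norm_sq]
  have h2 := h.mul_left (∑' k, ‖c k‖)
  calc ∑' k, ‖mkH c (summable_sq_of_summable h) k‖ ^ 2
      = ∑' k, ‖c k‖ ^ 2 := rfl
    _ ≤ ∑' k, (∑' k, ‖c k‖) * ‖c k‖ := by
        refine Summable.tsum_le_tsum (fun k => ?_) (summable_sq_of_summable h) h2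
        have h3 : ‖c k‖ ≤ ∑' k, ‖c k‖ := h.le_tsum k (fun j _ => norm_nonneg _)
        calc ‖c k‖ ^ 2 = ‖c k‖ * ‖c k‖ := by ring
          _ ≤ (∑' k, ‖c k‖) * ‖c k‖ := mul_le_mul_of_nonneg_right h3 (norm_nonneg _)
    _ = (∑' k, ‖c k‖) ^ 2 := by rw [tsum_mul_left]; ring

/-- Comparison of norms from a pointwise comparison. -/
lemma HH.norm_le_of_forall_le {ξ η : HH} {C : ℝ} (hC : 0 ≤ C) (h : ∀ k, ‖ξ k‖ ≤ C * ‖η k‖) :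
    ‖ξ‖ ≤ C * ‖η‖ := by
  have hS : 0 ≤ C * ‖η‖ := mul_nonneg hC (norm_nonneg _)
  refine abs_le_of_sq_le_sq' ?_ hS |>.2
  rw [mul_pow, HH.norm_sq, HH.norm_sq, ← tsum_mul_left]
  refine Summable.tsum_le_tsum (fun k => ?_) (HH.summable_sq ξ) ((HH.summable_sq η).mul_left _)
  calc ‖ξ k‖ ^ 2 ≤ (C * ‖η k‖) ^ 2 := pow_le_pow_left₀ (norm_nonneg _) (h k) 2
    _ = C ^ 2 * ‖η k‖ ^ 2 := by ring

end Vale.Agent.P205U
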