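import Mathlib

/-! # P205U : an equivariant continuous map of the plane is proper -/

namespace Vale.Agent.P205U

open Filter

/-- Write `z = z₀ + n₁ ω₁ + n₂ ω₂` with `z₀` in the compact cell `{s ω₁ + t ω₂ : s, t ∈ [0, 1]}`; then
`Φ z = Φ z₀ + n₁ η₁ + n₂ η₂`, `Φ z₀` is bounded, and `|n₁ η₁ + n₂ η₂| ≥ c (|n₁| + |n₂|)`. -/
theorem tendsto_cocompact_of_equivariant {ω₁ ω₂ η₁ η₂ : ℝ × ℝ}
    (hω : ω₁.1 * ω₂.2 - ω₁.2 * ω₂.1 ≠ 0) (hη : η₁.1 * η₂.2 - η₁.2 * η₂.1 ≠ 0)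
    {Φ : ℝ × ℝ → ℝ × ℝ} (hc : Continuous Φ) (t1 : ∀ z, Φ (z + ω₁) = Φ z + η₁)
    (t2 : ∀ z, Φ (z + ω₂) = Φ z + η₂) :
    Tendsto Φ (cocompact (ℝ × ℝ)) (cocompact (ℝ × ℝ)) := by
  obtain ⟨D, hD⟩ : ∃ D, D = ω₁.1 * ω₂.2 - ω₁.2 * ω₂.1 := ⟨_, rfl⟩
  obtain ⟨E, hE⟩ : ∃ E, E = η₁.1 * η₂.2 - η₁.2 * η₂.1 := ⟨_, rfl⟩
  have hD0 : D ≠ 0 := hD ▸ hω
  have hE0 : E ≠ 0 := hE ▸ hη
  obtain ⟨s, hs⟩ : ∃ s : ℝ × ℝ → ℝ, ∀ z, s z = (z.1 * ω₂.2 - z.2 * ω₂.1) / D := ⟨_, fun _ => rfl⟩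
  obtain ⟨t, ht⟩ : ∃ t : ℝ × ℝ → ℝ, ∀ z, t z = (ω₁.1 * z.2 - ω₁.2 * z.1) / D := ⟨_, fun _ => rfl⟩
  have hsc : Continuous s := by
    have : s = fun z : ℝ × ℝ => (z.1 * ω₂.2 - z.2 * ω₂.1) / D := funext hs
    rw [this]; fun_prop
  have htc : Continuous t := by
    have : t = fun z : ℝ × ℝ => (ω₁.1 * z.2 - ω₁.2 * z.1) / D := funext ht
    rw [this]; fun_prop
  have hz : ∀ z, z = s z • ω₁ + t z • ω₂ := by
    intro z
    ext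
    · simp only [Prod.fst_add, Prod.smul_fst, smul_eq_mul, hs, ht]
      field_simp
      rw [hD]; ring
    · simp only [Prod.snd_add, Prod.smul_snd, smul_eq_mul, hs, ht]
      field_simp
      rw [hD]; ring
  have s1 : ∀ z, s (z + ω₁) = s z + 1 := by
    intro z
    simp only [hs, Prod.fst_add, Prod.snd_add]
    field_simp
    rw [hD]; ring
  have s2 : ∀ z, s (z + ω₂) = s z := by
    intro z
    simp only [hs, Prod.fst_add, Prod.snd_add]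
    field_simp
    ring
  have u1 : ∀ z, t (z + ω₁) = t z := by
    intro z
    simp only [ht, Prod.fst_add, Prod.snd_add]
    field_simp
    ring
  have u2 : ∀ z, t (z + ω₂) = t z + 1 := by
    intro z
    simp only [ht, Prod.fst_add, Prod.snd_add]
    field_simp
    rw [hD]; ring
  obtain ⟨Ψ, hΨ⟩ : ∃ Ψ : ℝ × ℝ → ℝ × ℝ, ∀ z, Ψ z = Φ z - (s z • η₁ + t z • η₂) :=
    ⟨_, fun _ => rfl⟩
  have hΨc : Continuous Ψ := by
    have : Ψ = fun z => Φ z - (s z • η₁ + t z • η₂) := funext hΨ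
    rw [this]; fun_prop
  have p1 : Function.Periodic Ψ ω₁ := by
    intro z
    rw [hΨ, hΨ, t1, s1, u1, add_smul, one_smul]
    abel
  have p2 : Function.Periodic Ψ ω₂ := by
    intro z
    rw [hΨ, hΨ, t2, s2, u2, add_smul, one_smul]
    abel
  obtain ⟨C, hC⟩ : ∃ C, ∀ z, ‖Ψ z‖ ≤ C := by
    have hK : IsCompact (Set.Icc (0 : ℝ) 1 ×ˢ Set.Icc (0 : ℝ) 1) :=
      isCompact_Icc.prod isCompact_Icc
    have hG : Continuous (fun p : ℝ × ℝ => Ψ (p.1 • ω₁ + p.2 • ω₂)) := by fun_prop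
    obtain ⟨C, hC⟩ := hK.exists_bound_of_continuousOn hG.continuousOn
    refine ⟨C, fun z => ?_⟩
    have h1 : Ψ z = Ψ (Int.fract (s z) • ω₁ + Int.fract (t z) • ω₂) := by
      have e : z = (Int.fract (s z) • ω₁ + Int.fract (t z) • ω₂) + ⌊s z⌋ • ω₁ + ⌊t z⌋ • ω₂ := by
        have a1 : s z • ω₁ = Int.fract (s z) • ω₁ + ⌊s z⌋ • ω₁ := by
          rw [← Int.cast_smul_eq_zsmul ℝ, ← add_smul, Int.fract_add_floor]
        have a2 : t z • ω₂ = Int.fract (t z) • ω₂ + ⌊t z⌋ • ω₂ := by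
          rw [← Int.cast_smul_eq_zsmul ℝ, ← add_smul, Int.fract_add_floor]
        calc z = s z • ω₁ + t z • ω₂ := hz z
          _ = _ := by rw [a1, a2]; abel
      conv_lhs => rw [e]
      rw [(p2.zsmul ⌊t z⌋) _, (p1.zsmul ⌊s z⌋) _]
    rw [h1]
    exact hC (Int.fract (s z), Int.fract (t z))
      ⟨⟨Int.fract_nonneg _, (Int.fract_lt_one _).le⟩, ⟨Int.fract_nonneg _, (Int.fract_lt_one _).le⟩⟩
  -- lower bound for the linear part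
  obtain ⟨K, hK0, hK⟩ : ∃ K : ℝ, 0 < K ∧ ∀ z, ‖z‖ ≤ K * ‖s z • η₁ + t z • η₂‖ := by
    refine ⟨(|η₂.2| + |η₂.1|) / |E| * ‖ω₁‖ + (|η₁.1| + |η₁.2|) / |E| * ‖ω₂‖ + 1, by positivity,
      fun z => ?_⟩
    obtain ⟨w, hw⟩ : ∃ w, w = s z • η₁ + t z • η₂ := ⟨_, rfl⟩
    rw [← hw]
    have hE' : 0 < |E| := abs_pos.mpr hE0
    have w1 : |w.1| ≤ ‖w‖ := by
      rw [Prod.norm_def]; exact le_max_left _ _
    have w2 : |w.2| ≤ ‖w‖ := by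
      rw [Prod.norm_def]; exact le_max_right _ _
    have es : s z = (w.1 * η₂.2 - w.2 * η₂.1) / E := by
      rw [hw]
      simp only [Prod.fst_add, Prod.snd_add, Prod.smul_fst, Prod.smul_snd, smul_eq_mul]
      field_simp
      rw [hE]; ring
    have et : t z = (η₁.1 * w.2 - η₁.2 * w.1) / E := by
      rw [hw]
      simp only [Prod.fst_add, Prod.snd_add, Prod.smul_fst, Prod.smul_snd, smul_eq_mul]
      field_simp
      rw [hE]; ring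
    have bs : |s z| ≤ (|η₂.2| + |η₂.1|) / |E| * ‖w‖ := by
      rw [es, abs_div, div_mul_eq_mul_div]
      apply div_le_div_of_nonneg_right _ hE'.le
      calc |w.1 * η₂.2 - w.2 * η₂.1| ≤ |w.1 * η₂.2| + |w.2 * η₂.1| := abs_sub _ _
        _ = |w.1| * |η₂.2| + |w.2| * |η₂.1| := by rw [abs_mul, abs_mul]
        _ ≤ ‖w‖ * |η₂.2| + ‖w‖ * |η₂.1| := by gcongr
        _ = (|η₂.2| + |η₂.1|) * ‖w‖ := by ring
    have bt : |t z| ≤ (|η₁.1| + |η₁.2|) / |E| * ‖w‖ := by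
      rw [et, abs_div, div_mul_eq_mul_div]
      apply div_le_div_of_nonneg_right _ hE'.le
      calc |η₁.1 * w.2 - η₁.2 * w.1| ≤ |η₁.1 * w.2| + |η₁.2 * w.1| := abs_sub _ _
        _ = |η₁.1| * |w.2| + |η₁.2| * |w.1| := by rw [abs_mul, abs_mul]
        _ ≤ |η₁.1| * ‖w‖ + |η₁.2| * ‖w‖ := by gcongr
        _ = (|η₁.1| + |η₁.2|) * ‖w‖ := by ring
    calc ‖z‖ = ‖s z • ω₁ + t z • ω₂‖ := by rw [← hz z]
      _ ≤ ‖s z • ω₁‖ + ‖t z • ω₂‖ := norm_add_le _ _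
      _ = |s z| * ‖ω₁‖ + |t z| * ‖ω₂‖ := by rw [norm_smul, norm_smul, Real.norm_eq_abs, Real.norm_eq_abs]
      _ ≤ ((|η₂.2| + |η₂.1|) / |E| * ‖w‖) * ‖ω₁‖ + ((|η₁.1| + |η₁.2|) / |E| * ‖w‖) * ‖ω₂‖ := by
          gcongr
      _ ≤ ((|η₂.2| + |η₂.1|) / |E| * ‖ω₁‖ + (|η₁.1| + |η₁.2|) / |E| * ‖ω₂‖ + 1) * ‖w‖ := by
          have : 0 ≤ ‖w‖ := norm_nonneg _
          nlinarith
  rw [← Metric.cobounded_eq_cocompact, ← tendsto_norm_atTop_iff_cobounded,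
    Metric.cobounded_eq_cocompact]
  have hlow : ∀ z, ‖z‖ / K - C ≤ ‖Φ z‖ := by
    intro z
    have e : Φ z = (s z • η₁ + t z • η₂) + Ψ z := by rw [hΨ]; abel
    have h1 : ‖s z • η₁ + t z • η₂‖ ≤ ‖Φ z‖ + ‖Ψ z‖ := by
      have : s z • η₁ + t z • η₂ = Φ z - Ψ z := by rw [hΨ]; abel
      rw [this]; exact norm_sub_le _ _
    have h2 : ‖z‖ / K ≤ ‖s z • η₁ + t z • η₂‖ := by
      rw [div_le_iff₀ hK0, mul_comm]; exact hK z
    linarith [hC z]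
  refine tendsto_atTop_mono hlow ?_
  have h3 : Tendsto (fun z : ℝ × ℝ => ‖z‖) (cocompact (ℝ × ℝ)) atTop := tendsto_norm_cocompact_atTop
  exact tendsto_atTop_add_const_right _ _ (h3.atTop_div_const hK0)

end Vale.Agent.P205U
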