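import Vale.Agent.P205U.Covering
import Vale.Agent.P205U.Proper

/-! # P205U : global smooth inverse of an equivariant local diffeomorphism of the plane -/

namespace Vale.Agent.P205U

open scoped ContDiff
open Filter

private theorem infty_ne_zero : (∞ : WithTop ℕ∞) ≠ 0 := by
  simp

/-- A smooth map whose differential is invertible everywhere is a local homeomorphism
(`ContDiffAt.toOpenPartialHomeomorph`, `HasStrictFDerivAt.toOpenPartialHomeomorph`). -/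
theorem isLocalHomeomorph_of_invertible {Φ : ℝ × ℝ → ℝ × ℝ} (hs : ContDiff ℝ ∞ Φ)
    (hinv : ∀ z, (fderiv ℝ Φ z).IsInvertible) : IsLocalHomeomorph Φ := by
  intro z
  obtain ⟨e, he⟩ := hinv z
  have hd : DifferentiableAt ℝ Φ z := (hs.differentiable infty_ne_zero).differentiableAt
  have hf' : HasFDerivAt Φ (e : ℝ × ℝ →L[ℝ] ℝ × ℝ) z := by
    rw [he]
    exact hd.hasFDerivAt
  exact ⟨hs.contDiffAt.toOpenPartialHomeomorph Φ hf' infty_ne_zero,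
    hs.contDiffAt.mem_toOpenPartialHomeomorph_source hf' infty_ne_zero, rfl⟩

/-- A smooth bijection with invertible differential has a smooth inverse
(`ContDiffAt.to_localInverse`, or `OpenPartialHomeomorph.contDiffAt_symm`). -/
theorem exists_smooth_inverse_of_bijective {Φ : ℝ × ℝ → ℝ × ℝ} (hs : ContDiff ℝ ∞ Φ)
    (hinv : ∀ z, (fderiv ℝ Φ z).IsInvertible) (hb : Function.Bijective Φ) :
    ∃ Ψ : ℝ × ℝ → ℝ × ℝ, ContDiff ℝ ∞ Ψ ∧ (∀ z, Ψ (Φ z) = z) ∧ ∀ w, Φ (Ψ w) = w := by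
  obtain ⟨Ψ, hl, hr⟩ := Function.bijective_iff_has_inverse.1 hb
  refine ⟨Ψ, ?_, hl, hr⟩
  rw [contDiff_iff_contDiffAt]
  intro w
  obtain ⟨e, he⟩ := hinv (Ψ w)
  have hd : DifferentiableAt ℝ Φ (Ψ w) := (hs.differentiable infty_ne_zero).differentiableAt
  have hf' : HasFDerivAt Φ (e : ℝ × ℝ →L[ℝ] ℝ × ℝ) (Ψ w) := by
    rw [he]
    exact hd.hasFDerivAt
  have hc : ContDiffAt ℝ ∞ Φ (Ψ w) := hs.contDiffAt
  have h1 : ContDiffAt ℝ ∞ (hc.localInverse hf' infty_ne_zero) (Φ (Ψ w)) :=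
    hc.to_localInverse hf' infty_ne_zero
  have h2 : ∀ᶠ y in nhds (Φ (Ψ w)), Φ (hc.localInverse hf' infty_ne_zero y) = y :=
    (hc.hasStrictFDerivAt' hf' infty_ne_zero).eventually_right_inverse
  rw [hr w] at h1 h2
  refine h1.congr_of_eventuallyEq ?_
  filter_upwards [h2] with y hy
  calc Ψ y = Ψ (Φ (hc.localInverse hf' infty_ne_zero y)) := by rw [hy]
    _ = hc.localInverse hf' infty_ne_zero y := hl _

theorem exists_global_inverse {ω₁ ω₂ η₁ η₂ : ℝ × ℝ}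
    (hω : ω₁.1 * ω₂.2 - ω₁.2 * ω₂.1 ≠ 0) (hη : η₁.1 * η₂.2 - η₁.2 * η₂.1 ≠ 0)
    {Φ : ℝ × ℝ → ℝ × ℝ} (hs : ContDiff ℝ ∞ Φ) (hinv : ∀ z, (fderiv ℝ Φ z).IsInvertible)
    (t1 : ∀ z, Φ (z + ω₁) = Φ z + η₁) (t2 : ∀ z, Φ (z + ω₂) = Φ z + η₂) :
    ∃ Ψ : ℝ × ℝ → ℝ × ℝ, ContDiff ℝ ∞ Ψ ∧ (∀ z, Ψ (Φ z) = z) ∧ (∀ w, Φ (Ψ w) = w) ∧
      (∀ w, Ψ (w + η₁) = Ψ w + ω₁) ∧ ∀ w, Ψ (w + η₂) = Ψ w + ω₂ := by
  have hl := isLocalHomeomorph_of_invertible hs hinv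
  have hp := tendsto_cocompact_of_equivariant hω hη hs.continuous t1 t2
  have hb := bijective_of_proper_of_isLocalHomeomorph hs.continuous hl hp
  obtain ⟨Ψ, hΨ, h1, h2⟩ := exists_smooth_inverse_of_bijective hs hinv hb
  refine ⟨Ψ, hΨ, h1, h2, fun w => ?_, fun w => ?_⟩
  · calc Ψ (w + η₁) = Ψ (Φ (Ψ w) + η₁) := by rw [h2]
      _ = Ψ (Φ (Ψ w + ω₁)) := by rw [t1]
      _ = Ψ w + ω₁ := h1 _
  · calc Ψ (w + η₂) = Ψ (Φ (Ψ w) + η₂) := by rw [h2]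
      _ = Ψ (Φ (Ψ w + ω₂)) := by rw [t2]
      _ = Ψ w + ω₂ := h1 _

end Vale.Agent.P205U
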