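import Vale.Agent.P205T.Basic

/-! # P205U : the map `z ↦ (X z, Y z)` -/

namespace Vale.Agent.P205U

open scoped ContDiff
open Vale.Agent.P205T

/-- A `2 × 2` matrix with nonzero determinant is invertible (write the inverse explicitly,
`ContinuousLinearEquiv.equivOfInverse`). -/
lemma isInvertible_prod_frm {a b c d : ℝ} (h : a * d - b * c ≠ 0) :
    ((frm a b).prod (frm c d)).IsInvertible := by
  refine ⟨ContinuousLinearEquiv.equivOfInverse ((frm a b).prod (frm c d))
    ((frm (d / (a * d - b * c)) (-b / (a * d - b * c))).prod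
      (frm (-c / (a * d - b * c)) (a / (a * d - b * c)))) ?_ ?_, ?_⟩
  · intro v
    ext
    · simp only [ContinuousLinearMap.prod_apply, frm_apply]
      rw [div_mul_eq_mul_div, div_mul_eq_mul_div, ← add_div, div_eq_iff h]
      ring
    · simp only [ContinuousLinearMap.prod_apply, frm_apply]
      rw [div_mul_eq_mul_div, div_mul_eq_mul_div, ← add_div, div_eq_iff h]
      ring
  · intro v
    ext
    · simp only [ContinuousLinearMap.prod_apply, frm_apply]
      have e : a * (d / (a * d - b * c) * v.1 + -b / (a * d - b * c) * v.2) +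
          b * (-c / (a * d - b * c) * v.1 + a / (a * d - b * c) * v.2) =
          ((a * d - b * c) * v.1) / (a * d - b * c) := by ring
      rw [e, mul_div_cancel_left₀ _ h]
    · simp only [ContinuousLinearMap.prod_apply, frm_apply]
      have e : c * (d / (a * d - b * c) * v.1 + -b / (a * d - b * c) * v.2) +
          d * (-c / (a * d - b * c) * v.1 + a / (a * d - b * c) * v.2) =
          ((a * d - b * c) * v.2) / (a * d - b * c) := by ring
      rw [e, mul_div_cancel_left₀ _ h]
  · rfl

lemma hasFDerivAt_pair {X Y : ℝ × ℝ → ℝ} {a b c d : ℝ} {z : ℝ × ℝ}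
    (hX : HasFDerivAt X (frm a b) z) (hY : HasFDerivAt Y (frm c d) z) :
    HasFDerivAt (fun z => (X z, Y z)) ((frm a b).prod (frm c d)) z :=
  hX.prodMk hY

/-- Chain rule for `F ∘ (X, Y)`. -/
lemma fderiv_comp_pair {E : Type*} [NormedAddCommGroup E] [NormedSpace ℝ E] {F : ℝ × ℝ → E}
    (hF : ContDiff ℝ ∞ F) {X Y : ℝ × ℝ → ℝ} {a b c d : ℝ} {z : ℝ × ℝ}
    (hX : HasFDerivAt X (frm a b) z) (hY : HasFDerivAt Y (frm c d) z) (v : ℝ × ℝ) :
    fderiv ℝ (fun z => F (X z, Y z)) z v =
      fderiv ℝ F (X z, Y z) (a * v.1 + b * v.2, c * v.1 + d * v.2) := by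
  have hFd : HasFDerivAt F (fderiv ℝ F (X z, Y z)) (X z, Y z) :=
    ((hF.differentiable (by simp)) (X z, Y z)).hasFDerivAt
  have hc : HasFDerivAt (fun z => F (X z, Y z))
      ((fderiv ℝ F (X z, Y z)).comp ((frm a b).prod (frm c d))) z :=
    hFd.comp z (hasFDerivAt_pair hX hY)
  rw [hc.fderiv]
  simp [frm_apply]

end Vale.Agent.P205U
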