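import Vale.Agent.P205U.Flat
import Vale.Agent.P205U.InverseMap
import Vale.Agent.P205U.Lin2

/-! # P205U : every smooth Riemannian metric on a torus immerses isometrically in `ℝ⁴` -/

namespace Vale.Agent.P205U

open scoped ContDiff
open Vale.Agent.P205T

theorem all_tori (ω₁ ω₂ : ℝ × ℝ) (hω : ω₁.1 * ω₂.2 - ω₁.2 * ω₂.1 ≠ 0) (E F G : ℝ × ℝ → ℝ)
    (sE : ContDiff ℝ ∞ E) (sF : ContDiff ℝ ∞ F) (sG : ContDiff ℝ ∞ G)
    (pE : Per ω₁ ω₂ E) (pF : Per ω₁ ω₂ F) (pG : Per ω₁ ω₂ G)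
    (hE : ∀ z, 0 < E z) (hD : ∀ z, 0 < E z * G z - F z ^ 2) :
    ∃ Ψ : ℝ × ℝ → EuclideanSpace ℝ (Fin 4), ContDiff ℝ ∞ Ψ ∧ (∀ z, Ψ (z + ω₁) = Ψ z) ∧
      (∀ z, Ψ (z + ω₂) = Ψ z) ∧ ∀ z v w : ℝ × ℝ,
        inner ℝ (fderiv ℝ Ψ z v) (fderiv ℝ Ψ z w) =
          E z * (v.1 * w.1) + F z * (v.1 * w.2 + v.2 * w.1) + G z * (v.2 * w.2) := by
  -- the Gram-Schmidt coframe
  obtain ⟨A₁, hA₁⟩ : ∃ A : ℝ × ℝ → ℝ, A = fun z => Real.sqrt (E z) := ⟨_, rfl⟩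
  obtain ⟨A₂, hA₂⟩ : ∃ A : ℝ × ℝ → ℝ, A = fun z => F z / Real.sqrt (E z) := ⟨_, rfl⟩
  obtain ⟨B₁, hB₁⟩ : ∃ A : ℝ × ℝ → ℝ, A = fun _ => 0 := ⟨_, rfl⟩
  obtain ⟨B₂, hB₂⟩ : ∃ A : ℝ × ℝ → ℝ,
    A = fun z => Real.sqrt (E z * G z - F z ^ 2) / Real.sqrt (E z) := ⟨_, rfl⟩
  have hsE : ∀ z, 0 < Real.sqrt (E z) := fun z => Real.sqrt_pos.mpr (hE z)
  have hsD : ∀ z, 0 < Real.sqrt (E z * G z - F z ^ 2) := fun z => Real.sqrt_pos.mpr (hD z)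
  have sA₁ : ContDiff ℝ ∞ A₁ := by
    rw [hA₁]; exact sE.sqrt fun z => (hE z).ne'
  have sA₂ : ContDiff ℝ ∞ A₂ := by
    rw [hA₂]; exact sF.div (sE.sqrt fun z => (hE z).ne') fun z => (hsE z).ne'
  have sB₁ : ContDiff ℝ ∞ B₁ := by
    rw [hB₁]; exact contDiff_const
  have sB₂ : ContDiff ℝ ∞ B₂ := by
    rw [hB₂]
    exact (((sE.mul sG).sub (sF.pow 2)).sqrt fun z => (hD z).ne').div
      (sE.sqrt fun z => (hE z).ne') fun z => (hsE z).ne'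
  have pA₁ : Per ω₁ ω₂ A₁ := by
    rw [hA₁]; exact ⟨fun z => by simp only [pE.1], fun z => by simp only [pE.2]⟩
  have pA₂ : Per ω₁ ω₂ A₂ := by
    rw [hA₂]; exact ⟨fun z => by simp only [pE.1, pF.1], fun z => by simp only [pE.2, pF.2]⟩
  have pB₁ : Per ω₁ ω₂ B₁ := by
    rw [hB₁]; exact ⟨fun _ => rfl, fun _ => rfl⟩
  have pB₂ : Per ω₁ ω₂ B₂ := by
    rw [hB₂]
    exact ⟨fun z => by simp only [pE.1, pF.1, pG.1], fun z => by simp only [pE.2, pF.2, pG.2]⟩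
  have hd : ∀ z, 0 < dlt A₁ A₂ B₁ B₂ z := by
    intro z
    have : dlt A₁ A₂ B₁ B₂ z = Real.sqrt (E z * G z - F z ^ 2) := by
      simp only [dlt, hA₁, hA₂, hB₁, hB₂]
      have := (hsE z).ne'
      field_simp
      ring
    rw [this]
    exact hsD z
  obtain ⟨u, X, Y, x₁, x₂, y₁, y₂, η₁, η₂, su, pu, sX, sY, dXh, dYh, hdet, tX1, tY1, tX2, tY2,
    hmet⟩ := exists_flat_chart ω₁ ω₂ hω sA₁ sA₂ sB₁ sB₂ pA₁ pA₂ pB₁ pB₂ hd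
  have hη := indep_of_equivariant hω dXh dYh hdet tX1 tY1 tX2 tY2
  -- the chart
  obtain ⟨Φ, hΦ⟩ : ∃ Φ : ℝ × ℝ → ℝ × ℝ, Φ = fun z => (X z, Y z) := ⟨_, rfl⟩
  have sΦ : ContDiff ℝ ∞ Φ := by
    rw [hΦ]; exact sX.prodMk sY
  have dΦ : ∀ z, HasFDerivAt Φ ((frm (x₁ z) (x₂ z)).prod (frm (y₁ z) (y₂ z))) z := by
    intro z
    rw [hΦ]
    exact hasFDerivAt_pair (dXh z) (dYh z)
  have iΦ : ∀ z, (fderiv ℝ Φ z).IsInvertible := by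
    intro z
    rw [(dΦ z).fderiv]
    exact isInvertible_prod_frm (hdet z)
  have t1 : ∀ z, Φ (z + ω₁) = Φ z + η₁ := by
    intro z
    simp only [hΦ, tX1, tY1]
    rfl
  have t2 : ∀ z, Φ (z + ω₂) = Φ z + η₂ := by
    intro z
    simp only [hΦ, tX2, tY2]
    rfl
  obtain ⟨Θ, sΘ, hΘΦ, hΦΘ, e1, e2⟩ := exists_global_inverse hω hη sΦ iΦ t1 t2
  -- the conformal factor on the flat torus
  obtain ⟨ρ, hρ⟩ : ∃ ρ : ℝ × ℝ → ℝ, ρ = fun w => -u (Θ w) := ⟨_, rfl⟩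
  have sρ : ContDiff ℝ ∞ ρ := by
    rw [hρ]; exact (su.comp sΘ).neg
  have r1 : ∀ w, ρ (w + η₁) = ρ w := by
    intro w
    simp only [hρ, e1, pu.1]
  have r2 : ∀ w, ρ (w + η₂) = ρ w := by
    intro w
    simp only [hρ, e2, pu.2]
  obtain ⟨F', sF', q1, q2, hF'⟩ := conformal_torus η₁ η₂ hη ρ sρ r1 r2
  refine ⟨fun z => F' (X z, Y z), sF'.comp (sX.prodMk sY), ?_, ?_, ?_⟩
  · intro z
    show F' (X (z + ω₁), Y (z + ω₁)) = F' (X z, Y z)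
    rw [tX1, tY1]
    exact q1 (X z, Y z)
  · intro z
    show F' (X (z + ω₂), Y (z + ω₂)) = F' (X z, Y z)
    rw [tX2, tY2]
    exact q2 (X z, Y z)
  · intro z v w
    rw [fderiv_comp_pair sF' (dXh z) (dYh z) v, fderiv_comp_pair sF' (dXh z) (dYh z) w, hF']
    have h1 : ρ (X z, Y z) = -u z := by
      have : (X z, Y z) = Φ z := by rw [hΦ]
      rw [this, hρ]
      simp only [hΘΦ]
    rw [h1]
    simp only
    rw [hmet z v w]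
    have h2 : Real.exp (2 * -u z) * Real.exp (u z) ^ 2 = 1 := by
      rw [← Real.exp_nat_mul, ← Real.exp_add]
      simp
    have e3 : Real.sqrt (E z) ^ 2 = E z := Real.sq_sqrt (hE z).le
    have e4 : Real.sqrt (E z * G z - F z ^ 2) ^ 2 = E z * G z - F z ^ 2 := Real.sq_sqrt (hD z).le
    have h3 : (A₁ z * v.1 + A₂ z * v.2) * (A₁ z * w.1 + A₂ z * w.2) +
        (B₁ z * v.1 + B₂ z * v.2) * (B₁ z * w.1 + B₂ z * w.2) =
        E z * (v.1 * w.1) + F z * (v.1 * w.2 + v.2 * w.1) + G z * (v.2 * w.2) := by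
      simp only [hA₁, hA₂, hB₁, hB₂]
      have hs := (hsE z).ne'
      have hEz := (hE z).ne'
      generalize Real.sqrt (E z) = a at *
      generalize Real.sqrt (E z * G z - F z ^ 2) = d at *
      field_simp
      linear_combination (a ^ 2 * v.1 * w.1 - v.2 * w.2 * G z) * e3 + v.2 * w.2 * e4
    rw [h3, ← mul_assoc, h2, one_mul]

end Vale.Agent.P205U
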