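import Vale.Agent.P205U.Tame

/-! # P205U : regularity: solutions of tame coercive equations with rapidly decreasing right hand
side are rapidly decreasing -/

namespace Vale.Agent.P205U

open Vale.Agent.P205T

/-- Bounded in all truncated weighted norms. -/
def Bdd (ξ : HH) : Prop := ∀ s : ℕ, ∃ M : ℝ, ∀ N : ℕ, ‖Lam N s ξ‖ ≤ M

/-- Induction on `s`: `c ‖Λ v‖ ≤ ‖T Λ v‖ ≤ ‖Λ T v‖ + ‖T Λ v - Λ T v‖`. -/
theorem bdd_of_tame {T : HH →L[ℂ] HH} (hT : Tame T) {c : ℝ} (hc : 0 < c)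
    (hlow : ∀ ξ, c * ‖ξ‖ ≤ ‖T ξ‖) {v η : HH} (h : T v = η) (hη : Bdd η) : Bdd v := by
  intro s
  induction s with
  | zero =>
    refine ⟨‖v‖, fun N => ?_⟩
    rw [Lam_zero]
  | succ s ih =>
    obtain ⟨Ms, hMs⟩ := ih
    obtain ⟨C, hC⟩ := hT.cm s
    obtain ⟨M', hM'⟩ := hη (s + 1)
    refine ⟨(M' + |C| * Ms) / c, fun N => ?_⟩
    rw [le_div_iff₀ hc]
    have h1 : c * ‖Lam N (s + 1) v‖ ≤ ‖T (Lam N (s + 1) v)‖ := hlow _
    have h2 : ‖T (Lam N (s + 1) v)‖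
        ≤ ‖Lam N (s + 1) (T v)‖ + ‖T (Lam N (s + 1) v) - Lam N (s + 1) (T v)‖ := by
      have e : T (Lam N (s + 1) v)
          = Lam N (s + 1) (T v) + (T (Lam N (s + 1) v) - Lam N (s + 1) (T v)) := by abel
      calc ‖T (Lam N (s + 1) v)‖
          = ‖Lam N (s + 1) (T v) + (T (Lam N (s + 1) v) - Lam N (s + 1) (T v))‖ := by rw [← e]
        _ ≤ _ := norm_add_le _ _
    have h3 : ‖T (Lam N (s + 1) v) - Lam N (s + 1) (T v)‖ ≤ |C| * Ms := by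
      calc ‖T (Lam N (s + 1) v) - Lam N (s + 1) (T v)‖ ≤ C * ‖Lam N s v‖ := hC N v
        _ ≤ |C| * ‖Lam N s v‖ := mul_le_mul_of_nonneg_right (le_abs_self C) (norm_nonneg _)
        _ ≤ |C| * Ms := mul_le_mul_of_nonneg_left (hMs N) (abs_nonneg C)
    have h4 : ‖Lam N (s + 1) (T v)‖ ≤ M' := by
      rw [h]
      exact hM' N
    linarith

private lemma summable_int_aux : Summable fun n : ℤ => 1 / (1 + (n : ℝ) ^ 2) := by
  have h2 : Summable fun n : ℤ => 1 / (n : ℝ) ^ 2 :=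
    Real.summable_one_div_int_pow.2 (by norm_num)
  have h3 : Summable fun n : ℤ => (if n = 0 then (1 : ℝ) else 0) := (hasSum_ite_eq 0 1).summable
  refine Summable.of_nonneg_of_le (fun n => by positivity) (fun n => ?_) (h2.add h3)
  by_cases hn : n = 0
  · subst hn
    simp
  · rw [if_neg hn, add_zero]
    have hn' : (0 : ℝ) < (n : ℝ) ^ 2 := by
      have : (n : ℝ) ≠ 0 := by exact_mod_cast hn
      positivity
    exact one_div_le_one_div_of_le hn' (by linarith)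

/-- `nrm k ^ 4 ≥ (1 + k₁²)(1 + k₂²)`. -/
lemma summable_nrm_inv : Summable fun k : ℤ × ℤ => 1 / nrm k ^ 4 := by
  have hp : Summable fun k : ℤ × ℤ => (1 / (1 + (k.1 : ℝ) ^ 2)) * (1 / (1 + (k.2 : ℝ) ^ 2)) :=
    Summable.mul_of_nonneg summable_int_aux summable_int_aux
      (fun n => by positivity) (fun n => by positivity)
  refine Summable.of_nonneg_of_le (fun k => ?_) (fun k => ?_) hp
  · have := one_le_nrm k
    positivity
  · have h1 : (1 : ℝ) + (k.1 : ℝ) ^ 2 ≤ nrm k ^ 2 := by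
      unfold nrm
      have a1 := abs_nonneg (k.1 : ℝ)
      have a2 := abs_nonneg (k.2 : ℝ)
      have e : |(k.1 : ℝ)| ^ 2 = (k.1 : ℝ) ^ 2 := sq_abs _
      nlinarith [mul_nonneg a1 a2, sq_nonneg (|(k.2 : ℝ)|)]
    have h2 : (1 : ℝ) + (k.2 : ℝ) ^ 2 ≤ nrm k ^ 2 := by
      unfold nrm
      have a1 := abs_nonneg (k.1 : ℝ)
      have a2 := abs_nonneg (k.2 : ℝ)
      have e : |(k.2 : ℝ)| ^ 2 = (k.2 : ℝ) ^ 2 := sq_abs _
      nlinarith [mul_nonneg a1 a2, sq_nonneg (|(k.1 : ℝ)|)]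
    have p1 : (0 : ℝ) < 1 + (k.1 : ℝ) ^ 2 := by positivity
    have p2 : (0 : ℝ) < 1 + (k.2 : ℝ) ^ 2 := by positivity
    have h3 : (1 + (k.1 : ℝ) ^ 2) * (1 + (k.2 : ℝ) ^ 2) ≤ nrm k ^ 4 := by
      calc (1 + (k.1 : ℝ) ^ 2) * (1 + (k.2 : ℝ) ^ 2) ≤ nrm k ^ 2 * nrm k ^ 2 :=
            mul_le_mul h1 h2 p2.le (by positivity)
        _ = nrm k ^ 4 := by ring
    calc 1 / nrm k ^ 4 ≤ 1 / ((1 + (k.1 : ℝ) ^ 2) * (1 + (k.2 : ℝ) ^ 2)) :=
          one_div_le_one_div_of_le (mul_pos p1 p2) h3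
      _ = (1 / (1 + (k.1 : ℝ) ^ 2)) * (1 / (1 + (k.2 : ℝ) ^ 2)) := by
          rw [one_div_mul_one_div]

private lemma norm_Lam_apply (N s : ℕ) (ξ : HH) (k : ℤ × ℤ) :
    ‖Lam N s ξ k‖ = wN N k ^ s * ‖ξ k‖ := by
  have h0 : 0 ≤ wN N k ^ s := pow_nonneg (le_trans zero_le_one (one_le_wN N k)) _
  rw [Lam_apply, norm_mul, Complex.norm_real, Real.norm_eq_abs, abs_of_nonneg h0]

/-- Pointwise: `nrm k ^ s ‖ξ k‖ ≤ ‖Lam N s ξ‖ ≤ M` for `N` large; then compare with `1 / nrm k ^ 4`. -/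
theorem RD_of_bdd {ξ : HH} (h : Bdd ξ) : RD fun k => ξ k := by
  intro m
  obtain ⟨M, hM⟩ := h (m + 4)
  have hs : Summable fun k : ℤ × ℤ => M * (1 / nrm k ^ 4) := summable_nrm_inv.mul_left M
  refine Summable.of_nonneg_of_le (fun k => ?_) (fun k => ?_) hs
  · have := one_le_nrm k
    positivity
  · have hn : 1 ≤ nrm k := one_le_nrm k
    have hn0 : 0 < nrm k := by linarith
    obtain ⟨N, hN⟩ := exists_nat_ge (nrm k)
    have hN' : nrm k ≤ (N : ℝ) + 1 := by linarith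
    have h1 : ‖Lam N (m + 4) ξ k‖ ≤ M := (HH.norm_apply_le _ k).trans (hM N)
    rw [norm_Lam_apply, wN_eq hN'] at h1
    have h4 : 0 < nrm k ^ 4 := by positivity
    rw [mul_one_div, le_div_iff₀ h4]
    calc ‖ξ k‖ * nrm k ^ m * nrm k ^ 4 = nrm k ^ (m + 4) * ‖ξ k‖ := by ring
      _ ≤ M := h1

/-- `‖Lam N s ξ‖ ≤ ∑ nrm k ^ s ‖ξ k‖`. -/
theorem bdd_of_RD {ξ : HH} (h : RD fun k => ξ k) : Bdd ξ := by
  intro s
  refine ⟨∑' k, ‖ξ k‖ * nrm k ^ s, fun N => ?_⟩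
  have hle : ∀ k, ‖Lam N s ξ k‖ ≤ ‖ξ k‖ * nrm k ^ s := by
    intro k
    rw [norm_Lam_apply, mul_comm]
    apply mul_le_mul_of_nonneg_left _ (norm_nonneg _)
    exact pow_le_pow_left₀ (le_trans zero_le_one (one_le_wN N k)) (wN_le_nrm N k) s
  have hsum : Summable fun k => ‖Lam N s ξ k‖ :=
    Summable.of_nonneg_of_le (fun k => norm_nonneg _) hle (h s)
  have e : mkH (fun k => Lam N s ξ k) (summable_sq_of_summable hsum) = Lam N s ξ := by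
    ext k
    rfl
  calc ‖Lam N s ξ‖ = ‖mkH (fun k => Lam N s ξ k) (summable_sq_of_summable hsum)‖ := by rw [e]
    _ ≤ ∑' k, ‖Lam N s ξ k‖ := norm_mkH_le_tsum hsum
    _ ≤ ∑' k, ‖ξ k‖ * nrm k ^ s := Summable.tsum_le_tsum hle hsum (h s)

end Vale.Agent.P205U
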