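import Vale.Agent.P205U.TOp
import Vale.Agent.P205U.Regular
import Vale.Agent.P205U.Coercive
import Vale.Agent.P205U.CvsRD

/-! # P205U : solving the elliptic equation on the Fourier side -/

namespace Vale.Agent.P205U

open Vale.Agent.P205T

variable (Φ : Freq) {lam : ℝ} {b11 b12 b22 f : ℤ × ℤ → ℂ}

/-- Step 1: a rapidly decreasing solution of `T v = η`. -/
theorem exists_RD_solution (hlam : 0 < lam) (r11 : RD b11) (r12 : RD b12) (r22 : RD b22)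
    (h11 : Herm b11) (h12 : Herm b12) (h22 : Herm b22) (η : HH) (hη : RD fun k => η k) :
    ∃ v : HH, TT Φ lam b11 b12 b22 v = η ∧ RD fun k => v k := by
  have hc : 0 < min lam 1 := lt_min hlam one_pos
  obtain ⟨hlow, hsurj⟩ := coercive_bijective (TT Φ lam b11 b12 b22) hc
    (fun ξ => TT_coercive Φ lam r11 r12 r22 hlam h11 h12 h22 ξ)
  obtain ⟨v, hv⟩ := hsurj η
  exact ⟨v, hv, RD_of_bdd (bdd_of_tame (TT_tame Φ lam r11 r12 r22) hc hlow hv (bdd_of_RD hη))⟩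

/-- division by `kap` away from the zero mode -/
private noncomputable def dvk (c : ℤ × ℤ → ℂ) (k : ℤ × ℤ) : ℂ :=
  if k = 0 then 0 else c k / (kap Φ k : ℂ)

private lemma norm_dvk_le (c : ℤ × ℤ → ℂ) (k : ℤ × ℤ) :
    ‖dvk Φ c k‖ ≤ (1 / Real.sqrt Φ.m) * ‖c k‖ := by
  have hm : 0 < Real.sqrt Φ.m := Real.sqrt_pos.2 Φ.hm
  unfold dvk
  by_cases hk : k = 0
  · rw [if_pos hk, norm_zero]
    positivity
  · rw [if_neg hk, norm_div, Complex.norm_real, Real.norm_eq_abs, abs_of_pos (kap_pos Φ hk)]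
    have h1 := sqrt_m_le_kap Φ hk
    rw [div_eq_mul_one_div, mul_comm]
    exact mul_le_mul_of_nonneg_right (one_div_le_one_div_of_le hm h1) (norm_nonneg _)

private lemma RD_dvk {c : ℤ × ℤ → ℂ} (hc : RD c) : RD (dvk Φ c) := by
  intro M
  refine Summable.of_nonneg_of_le (fun k => ?_) (fun k => ?_) ((hc M).mul_left (1 / Real.sqrt Φ.m))
  · exact mul_nonneg (norm_nonneg _) (pow_nonneg (le_trans zero_le_one (one_le_nrm k)) _)
  · have h0 : 0 ≤ nrm k ^ M := pow_nonneg (le_trans zero_le_one (one_le_nrm k)) _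
    calc ‖dvk Φ c k‖ * nrm k ^ M ≤ ((1 / Real.sqrt Φ.m) * ‖c k‖) * nrm k ^ M :=
          mul_le_mul_of_nonneg_right (norm_dvk_le Φ c k) h0
      _ = 1 / Real.sqrt Φ.m * (‖c k‖ * nrm k ^ M) := by ring

private lemma kap_zero : kap Φ 0 = 0 := by
  unfold kap
  simp

private lemma alpha_eq (k : ℤ × ℤ) : (Φ.α k : ℂ) = (kap Φ k : ℂ) * rs1 Φ k := by
  unfold rs1
  by_cases hk : k = 0
  · rw [if_pos hk, hk]
    simp
  · rw [if_neg hk]
    have h := (kap_pos Φ hk).ne'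
    rw [← Complex.ofReal_mul]
    congr 1
    field_simp

private lemma beta_eq (k : ℤ × ℤ) : (Φ.β k : ℂ) = (kap Φ k : ℂ) * rs2 Φ k := by
  unfold rs2
  by_cases hk : k = 0
  · rw [if_pos hk, hk]
    simp
  · rw [if_neg hk]
    have h := (kap_pos Φ hk).ne'
    rw [← Complex.ofReal_mul]
    congr 1
    field_simp

private lemma kap_mul_dvk (c : ℤ × ℤ → ℂ) (s : ℤ × ℤ → ℂ) (hs : s 0 = 0) (k : ℤ × ℤ) :
    (kap Φ k : ℂ) * s k * dvk Φ c k = s k * c k := by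
  unfold dvk
  by_cases hk : k = 0
  · rw [if_pos hk, hk, hs]
    simp
  · rw [if_neg hk]
    have h : (kap Φ k : ℂ) ≠ 0 := by
      exact_mod_cast (kap_pos Φ hk).ne'
    field_simp

private lemma cvs_I_mul {b : ℤ × ℤ → ℂ} (hb : RD b) (ξ : HH) (k : ℤ × ℤ) :
    cvs b (fun j => Complex.I * ξ j) k = Complex.I * (cvH b ξ) k := by
  rw [cvH_apply hb.summable_norm]
  unfold cvs
  rw [← tsum_mul_left]
  refine tsum_congr fun m => ?_
  ring

/-- Step 2.  Take `η k = - f k / kap k` (`k ≠ 0`), `η 0 = 0`, `v` from step 1 and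
`u k = v k / kap k` (`k ≠ 0`), `u 0 = 0`.  Then `Da Φ u k = I * (muH (rs1 Φ) v) k`,
`cvs b (fun k => I * ξ k) k = I * (cvH b ξ) k` (`cvH_apply`), so `gW1 = I * VV1 v`, ...,
`Da (gJ1) k + Db (gJ2) k = - kap k * ((TT v) k - dl0 k * v k) = f k` for `k ≠ 0`, and both sides
vanish at `k = 0` (`map_zero`). -/
theorem exists_seq_solution (hlam : 0 < lam) (r11 : RD b11) (r12 : RD b12) (r22 : RD b22)
    (h11 : Herm b11) (h12 : Herm b12) (h22 : Herm b22) (hf : RD f) (hf0 : f 0 = 0) :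
    ∃ u : ℤ × ℤ → ℂ, RD u ∧ ∀ k,
      Da Φ (gJ1 Φ lam b11 b12 b22 u) k + Db Φ (gJ2 Φ lam b11 b12 b22 u) k = f k := by
  have hηRD : RD (dvk Φ (fun k => - f k)) := by
    refine RD_dvk Φ ?_
    have := hf.const_mul (-1)
    refine fun m => (this m).congr fun k => ?_
    congr 2
    ring
  obtain ⟨v, hv, hvRD⟩ := exists_RD_solution Φ hlam r11 r12 r22 h11 h12 h22
    (mkH (dvk Φ (fun k => - f k)) (summable_sq_of_summable hηRD.summable_norm)) hηRD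
  refine ⟨dvk Φ (fun k => v k), RD_dvk Φ hvRD, fun k => ?_⟩
  set u := dvk Φ (fun k => v k) with hu
  have hR1 : ∀ (ξ : HH) (j : ℤ × ℤ), muH (rs1 Φ) ξ j = rs1 Φ j * ξ j :=
    fun ξ j => muH_apply (norm_rs1_le Φ) ξ j
  have hR2 : ∀ (ξ : HH) (j : ℤ × ℤ), muH (rs2 Φ) ξ j = rs2 Φ j * ξ j :=
    fun ξ j => muH_apply (norm_rs2_le Φ) ξ j
  have hD0 : ∀ (ξ : HH) (j : ℤ × ℤ), muH dl0 ξ j = dl0 j * ξ j :=
    fun ξ j => muH_apply norm_dl0_le ξ j
  have hs1 : rs1 Φ 0 = 0 := by simp [rs1]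
  have hs2 : rs2 Φ 0 = 0 := by simp [rs2]
  have eDa : Da Φ u = fun j => Complex.I * (muH (rs1 Φ) v) j := by
    funext j
    unfold Da
    rw [hR1, alpha_eq, mul_assoc, kap_mul_dvk Φ _ _ hs1]
  have eDb : Db Φ u = fun j => Complex.I * (muH (rs2 Φ) v) j := by
    funext j
    unfold Db
    rw [hR2, beta_eq, mul_assoc, kap_mul_dvk Φ _ _ hs2]
  have eW1 : gW1 Φ b11 b12 u = fun j => Complex.I * (VV1 Φ b11 b12 v) j := by
    funext j
    unfold gW1 VV1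
    rw [eDa, eDb, cvs_I_mul r11, cvs_I_mul r12]
    simp only [add_apply, ContinuousLinearMap.comp_apply, lp.coeFn_add,
      Pi.add_apply]
    ring
  have eW2 : gW2 Φ b12 b22 u = fun j => Complex.I * (VV2 Φ b12 b22 v) j := by
    funext j
    unfold gW2 VV2
    rw [eDa, eDb, cvs_I_mul r12, cvs_I_mul r22]
    simp only [add_apply, ContinuousLinearMap.comp_apply, lp.coeFn_add,
      Pi.add_apply]
    ring
  have eJ1 : gJ1 Φ lam b11 b12 b22 u k = Complex.I * ((lam : ℂ) * (rs1 Φ k * v k) +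
      (cvH b11 (VV1 Φ b11 b12 v)) k + (cvH b12 (VV2 Φ b12 b22 v)) k) := by
    unfold gJ1
    rw [eW1, eW2, eDa, cvs_I_mul r11, cvs_I_mul r12]
    beta_reduce
    rw [hR1]
    ring
  have eJ2 : gJ2 Φ lam b11 b12 b22 u k = Complex.I * ((lam : ℂ) * (rs2 Φ k * v k) +
      (cvH b12 (VV1 Φ b11 b12 v)) k + (cvH b22 (VV2 Φ b12 b22 v)) k) := by
    unfold gJ2
    rw [eW1, eW2, eDb, cvs_I_mul r12, cvs_I_mul r22]
    beta_reduce
    rw [hR2]
    ring
  have eT : (TT Φ lam b11 b12 b22 v) k =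
      (lam : ℂ) * (rs1 Φ k * (rs1 Φ k * v k) + rs2 Φ k * (rs2 Φ k * v k)) +
      rs1 Φ k * ((cvH b11 (VV1 Φ b11 b12 v)) k + (cvH b12 (VV2 Φ b12 b22 v)) k) +
      rs2 Φ k * ((cvH b12 (VV1 Φ b11 b12 v)) k + (cvH b22 (VV2 Φ b12 b22 v)) k) +
      dl0 k * v k := by
    unfold TT
    simp only [add_apply, ContinuousLinearMap.comp_apply, lp.coeFn_add,
      Pi.add_apply, smul_apply, lp.coeFn_smul, Pi.smul_apply, smul_eq_mul,
      hR1, hR2, hD0]
  have eMain : Da Φ (gJ1 Φ lam b11 b12 b22 u) k + Db Φ (gJ2 Φ lam b11 b12 b22 u) k =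
      - (kap Φ k : ℂ) * ((TT Φ lam b11 b12 b22 v) k - dl0 k * v k) := by
    unfold Da Db
    rw [eJ1, eJ2, eT, alpha_eq, beta_eq]
    have hI : Complex.I * Complex.I = -1 := Complex.I_mul_I
    linear_combination ((kap Φ k : ℂ) * rs1 Φ k * ((lam : ℂ) * (rs1 Φ k * v k) +
      (cvH b11 (VV1 Φ b11 b12 v)) k + (cvH b12 (VV2 Φ b12 b22 v)) k) +
      (kap Φ k : ℂ) * rs2 Φ k * ((lam : ℂ) * (rs2 Φ k * v k) +
      (cvH b12 (VV1 Φ b11 b12 v)) k + (cvH b22 (VV2 Φ b12 b22 v)) k)) * hI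
  rw [eMain, hv, mkH_apply]
  by_cases hk : k = 0
  · rw [hk, kap_zero, hf0]
    simp
  · have h : (kap Φ k : ℂ) ≠ 0 := by
      exact_mod_cast (kap_pos Φ hk).ne'
    unfold dvk dl0
    rw [if_neg hk, if_neg hk]
    field_simp
    ring

end Vale.Agent.P205U
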