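import Vale.Agent.P205U.TameConv

/-! # P205U : the operator `T = Σ Rᵢ (λ δᵢⱼ + (B B)ᵢⱼ) Rⱼ + Π₀` on `HH` -/

namespace Vale.Agent.P205U

open Vale.Agent.P205T

variable (Φ : Freq)

/-- `|κ_k| = sqrt (α k ² + β k ²)`. -/
noncomputable def kap (k : ℤ × ℤ) : ℝ := Real.sqrt (Φ.α k ^ 2 + Φ.β k ^ 2)

/-- Symbols of the Riesz transforms (without the factor `i`). -/
noncomputable def rs1 (k : ℤ × ℤ) : ℂ := if k = 0 then 0 else ((Φ.α k / kap Φ k : ℝ) : ℂ)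
noncomputable def rs2 (k : ℤ × ℤ) : ℂ := if k = 0 then 0 else ((Φ.β k / kap Φ k : ℝ) : ℂ)

/-- Symbol of the projection on the constants. -/
noncomputable def dl0 (k : ℤ × ℤ) : ℂ := if k = 0 then 1 else 0

lemma kap_pos {k : ℤ × ℤ} (hk : k ≠ 0) : 0 < kap Φ k := by
  unfold kap
  exact Real.sqrt_pos.2 (lt_of_lt_of_le Φ.hm (Φ.ell k hk))

lemma kap_sq (k : ℤ × ℤ) : kap Φ k ^ 2 = Φ.α k ^ 2 + Φ.β k ^ 2 := by
  unfold kap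
  exact Real.sq_sqrt (by positivity)

/-- `kap` is bounded below on the nonzero modes. -/
lemma sqrt_m_le_kap {k : ℤ × ℤ} (hk : k ≠ 0) : Real.sqrt Φ.m ≤ kap Φ k := by
  unfold kap
  exact Real.sqrt_le_sqrt (Φ.ell k hk)

lemma norm_rs1_le (k : ℤ × ℤ) : ‖rs1 Φ k‖ ≤ 1 := by
  unfold rs1
  split_ifs with hk
  · simp
  · have hp := kap_pos Φ hk
    have hs := kap_sq Φ k
    rw [Complex.norm_real, Real.norm_eq_abs, abs_div, abs_of_pos hp, div_le_one hp]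
    exact abs_le_of_sq_le_sq (by nlinarith [sq_nonneg (Φ.β k)]) hp.le

lemma norm_rs2_le (k : ℤ × ℤ) : ‖rs2 Φ k‖ ≤ 1 := by
  unfold rs2
  split_ifs with hk
  · simp
  · have hp := kap_pos Φ hk
    have hs := kap_sq Φ k
    rw [Complex.norm_real, Real.norm_eq_abs, abs_div, abs_of_pos hp, div_le_one hp]
    exact abs_le_of_sq_le_sq (by nlinarith [sq_nonneg (Φ.α k)]) hp.le

lemma norm_dl0_le (k : ℤ × ℤ) : ‖dl0 k‖ ≤ 1 := by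
  unfold dl0
  split_ifs <;> simp

private lemma top_symb_sq (k : ℤ × ℤ) :
    ‖rs1 Φ k‖ ^ 2 + ‖rs2 Φ k‖ ^ 2 + (if k = 0 then (1 : ℝ) else 0) = 1 := by
  unfold rs1 rs2
  split_ifs with hk
  · simp
  · have hp := kap_pos Φ hk
    have hs := kap_sq Φ k
    rw [Complex.norm_real, Complex.norm_real, Real.norm_eq_abs, Real.norm_eq_abs, sq_abs, sq_abs,
      div_pow, div_pow, hs]
    have h0 : Φ.α k ^ 2 + Φ.β k ^ 2 ≠ 0 := by rw [← hs]; positivity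
    field_simp
    ring

/-- `‖R₁ ξ‖² + ‖R₂ ξ‖² + |ξ₀|² = ‖ξ‖²`. -/
lemma norm_sq_riesz (ξ : HH) :
    ‖muH (rs1 Φ) ξ‖ ^ 2 + ‖muH (rs2 Φ) ξ‖ ^ 2 + ‖ξ 0‖ ^ 2 = ‖ξ‖ ^ 2 := by
  have h1 := HH.summable_sq (muH (rs1 Φ) ξ)
  have h2 := HH.summable_sq (muH (rs2 Φ) ξ)
  have h3 : ‖ξ 0‖ ^ 2 = ∑' k : ℤ × ℤ, (if k = 0 then ‖ξ 0‖ ^ 2 else 0) := by
    rw [tsum_ite_eq]
  have h3s : Summable fun k : ℤ × ℤ => (if k = 0 then ‖ξ 0‖ ^ 2 else 0) := by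
    refine summable_of_ne_finset_zero (s := {0}) ?_
    intro k hk
    rw [Finset.mem_singleton] at hk
    rw [if_neg hk]
  rw [HH.norm_sq, HH.norm_sq, HH.norm_sq, h3, ← (h1.tsum_add h2), ← ((h1.add h2).tsum_add h3s)]
  refine tsum_congr (fun k => ?_)
  rw [muH_apply (norm_rs1_le Φ), muH_apply (norm_rs2_le Φ), norm_mul, norm_mul]
  have hk := top_symb_sq Φ k
  by_cases h0 : k = 0
  · subst h0
    rw [if_pos rfl] at hk ⊢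
    calc (‖rs1 Φ 0‖ * ‖ξ 0‖) ^ 2 + (‖rs2 Φ 0‖ * ‖ξ 0‖) ^ 2 + ‖ξ 0‖ ^ 2
        = (‖rs1 Φ 0‖ ^ 2 + ‖rs2 Φ 0‖ ^ 2 + 1) * ‖ξ 0‖ ^ 2 := by ring
      _ = ‖ξ 0‖ ^ 2 := by rw [hk, one_mul]
  · rw [if_neg h0] at hk ⊢
    calc (‖rs1 Φ k‖ * ‖ξ k‖) ^ 2 + (‖rs2 Φ k‖ * ‖ξ k‖) ^ 2 + 0
        = (‖rs1 Φ k‖ ^ 2 + ‖rs2 Φ k‖ ^ 2 + 0) * ‖ξ k‖ ^ 2 := by ring
      _ = ‖ξ k‖ ^ 2 := by rw [hk, one_mul]

private lemma top_rs1_real (k : ℤ × ℤ) : (starRingEnd ℂ) (rs1 Φ k) = rs1 Φ k := by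
  unfold rs1
  split_ifs
  · simp
  · exact Complex.conj_ofReal _

private lemma top_rs2_real (k : ℤ × ℤ) : (starRingEnd ℂ) (rs2 Φ k) = rs2 Φ k := by
  unfold rs2
  split_ifs
  · simp
  · exact Complex.conj_ofReal _

private lemma top_inner_dl0 (ξ : HH) : inner ℂ (muH dl0 ξ) ξ = ((‖ξ 0‖ ^ 2 : ℝ) : ℂ) := by
  rw [HH.inner_eq, tsum_eq_single (0 : ℤ × ℤ)]
  · rw [muH_apply norm_dl0_le]
    unfold dl0
    rw [if_pos rfl, one_mul, Complex.mul_conj, Complex.normSq_eq_norm_sq]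
  · intro k hk
    rw [muH_apply norm_dl0_le]
    unfold dl0
    rw [if_neg hk, zero_mul, map_zero, mul_zero]

variable (lam : ℝ) (b11 b12 b22 : ℤ × ℤ → ℂ)

/-- `(B R ξ)₁`. -/
noncomputable def VV1 : HH →L[ℂ] HH := cvH b11 ∘L muH (rs1 Φ) + cvH b12 ∘L muH (rs2 Φ)

/-- `(B R ξ)₂`. -/
noncomputable def VV2 : HH →L[ℂ] HH := cvH b12 ∘L muH (rs1 Φ) + cvH b22 ∘L muH (rs2 Φ)

/-- The operator. -/
noncomputable def TT : HH →L[ℂ] HH :=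
  (lam : ℂ) • (muH (rs1 Φ) ∘L muH (rs1 Φ) + muH (rs2 Φ) ∘L muH (rs2 Φ)) +
    muH (rs1 Φ) ∘L (cvH b11 ∘L VV1 Φ b11 b12 + cvH b12 ∘L VV2 Φ b12 b22) +
    muH (rs2 Φ) ∘L (cvH b12 ∘L VV1 Φ b11 b12 + cvH b22 ∘L VV2 Φ b12 b22) + muH dl0

variable {b11 b12 b22}

section

variable (r11 : RD b11) (r12 : RD b12) (r22 : RD b22)

/- Move `R₁, R₂` and the convolutions to the other side (`inner_muH`, `inner_cvH`). -/
include r11 r12 r22 in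
theorem TT_inner (h11 : Herm b11) (h12 : Herm b12) (h22 : Herm b22) (ξ : HH) :
    (inner ℂ (TT Φ lam b11 b12 b22 ξ) ξ).re =
      lam * (‖muH (rs1 Φ) ξ‖ ^ 2 + ‖muH (rs2 Φ) ξ‖ ^ 2) + ‖VV1 Φ b11 b12 ξ‖ ^ 2 +
        ‖VV2 Φ b12 b22 ξ‖ ^ 2 + ‖ξ 0‖ ^ 2 := by
  have m1 := fun a b : HH => inner_muH (norm_rs1_le Φ) (top_rs1_real Φ) a b
  have m2 := fun a b : HH => inner_muH (norm_rs2_le Φ) (top_rs2_real Φ) a b
  have c11 := fun a b : HH => inner_cvH r11.summable_norm h11 a b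
  have c12 := fun a b : HH => inner_cvH r12.summable_norm h12 a b
  have c22 := fun a b : HH => inner_cvH r22.summable_norm h22 a b
  obtain ⟨R1, hR1⟩ : ∃ R : HH, R = muH (rs1 Φ) ξ := ⟨_, rfl⟩
  obtain ⟨R2, hR2⟩ : ∃ R : HH, R = muH (rs2 Φ) ξ := ⟨_, rfl⟩
  obtain ⟨V1, hV1⟩ : ∃ V : HH, V = VV1 Φ b11 b12 ξ := ⟨_, rfl⟩
  obtain ⟨V2, hV2⟩ : ∃ V : HH, V = VV2 Φ b12 b22 ξ := ⟨_, rfl⟩
  have e1 : V1 = cvH b11 R1 + cvH b12 R2 := by rw [hV1, hR1, hR2]; rfl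
  have e2 : V2 = cvH b12 R1 + cvH b22 R2 := by rw [hV2, hR1, hR2]; rfl
  have hT : TT Φ lam b11 b12 b22 ξ =
      (lam : ℂ) • (muH (rs1 Φ) R1 + muH (rs2 Φ) R2) + muH (rs1 Φ) (cvH b11 V1 + cvH b12 V2) +
        muH (rs2 Φ) (cvH b12 V1 + cvH b22 V2) + muH dl0 ξ := by
    rw [hV1, hV2, hR1, hR2]; rfl
  have p1 : inner ℂ (muH (rs1 Φ) R1) ξ = inner ℂ R1 R1 := by rw [m1 R1 ξ, ← hR1]
  have p2 : inner ℂ (muH (rs2 Φ) R2) ξ = inner ℂ R2 R2 := by rw [m2 R2 ξ, ← hR2]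
  have p3 : inner ℂ (muH (rs1 Φ) (cvH b11 V1 + cvH b12 V2)) ξ =
      inner ℂ V1 (cvH b11 R1) + inner ℂ V2 (cvH b12 R1) := by
    rw [m1 _ ξ, ← hR1, inner_add_left, c11 V1 R1, c12 V2 R1]
  have p4 : inner ℂ (muH (rs2 Φ) (cvH b12 V1 + cvH b22 V2)) ξ =
      inner ℂ V1 (cvH b12 R2) + inner ℂ V2 (cvH b22 R2) := by
    rw [m2 _ ξ, ← hR2, inner_add_left, c12 V1 R2, c22 V2 R2]
  have f1 : inner ℂ V1 V1 = inner ℂ V1 (cvH b11 R1) + inner ℂ V1 (cvH b12 R2) := by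
    rw [← inner_add_right, ← e1]
  have f2 : inner ℂ V2 V2 = inner ℂ V2 (cvH b12 R1) + inner ℂ V2 (cvH b22 R2) := by
    rw [← inner_add_right, ← e2]
  have hA : inner ℂ (TT Φ lam b11 b12 b22 ξ) ξ =
      (lam : ℂ) * (inner ℂ R1 R1 + inner ℂ R2 R2) + inner ℂ V1 V1 + inner ℂ V2 V2 +
        ((‖ξ 0‖ ^ 2 : ℝ) : ℂ) := by
    rw [hT, inner_add_left, inner_add_left, inner_add_left, inner_smul_left, inner_add_left,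
      p1, p2, p3, p4, top_inner_dl0, f1, f2, Complex.conj_ofReal]
    ring
  rw [hA, ← hR1, ← hR2, ← hV1, ← hV2, inner_self_eq_norm_sq_to_K, inner_self_eq_norm_sq_to_K,
    inner_self_eq_norm_sq_to_K, inner_self_eq_norm_sq_to_K]
  have : ((lam : ℂ) * (((‖R1‖ : ℝ) : ℂ) ^ 2 + ((‖R2‖ : ℝ) : ℂ) ^ 2) + ((‖V1‖ : ℝ) : ℂ) ^ 2
      + ((‖V2‖ : ℝ) : ℂ) ^ 2 + ((‖ξ 0‖ ^ 2 : ℝ) : ℂ))
      = ((lam * (‖R1‖ ^ 2 + ‖R2‖ ^ 2) + ‖V1‖ ^ 2 + ‖V2‖ ^ 2 + ‖ξ 0‖ ^ 2 : ℝ) : ℂ) := by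
    push_cast
    ring
  exact (congrArg Complex.re this).trans (Complex.ofReal_re _)

include r11 r12 r22 in
theorem TT_coercive (hlam : 0 < lam) (h11 : Herm b11) (h12 : Herm b12) (h22 : Herm b22) (ξ : HH) :
    min lam 1 * ‖ξ‖ ^ 2 ≤ (inner ℂ (TT Φ lam b11 b12 b22 ξ) ξ).re := by
  rw [TT_inner Φ lam r11 r12 r22 h11 h12 h22 ξ, ← norm_sq_riesz Φ ξ]
  have hm1 : min lam 1 ≤ lam := min_le_left _ _
  have hm2 : min lam 1 ≤ 1 := min_le_right _ _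
  have a1 : 0 ≤ ‖muH (rs1 Φ) ξ‖ ^ 2 + ‖muH (rs2 Φ) ξ‖ ^ 2 := by positivity
  have a2 : 0 ≤ ‖ξ 0‖ ^ 2 := by positivity
  have a3 : 0 ≤ ‖VV1 Φ b11 b12 ξ‖ ^ 2 := by positivity
  have a4 : 0 ≤ ‖VV2 Φ b12 b22 ξ‖ ^ 2 := by positivity
  have b1 := mul_le_mul_of_nonneg_right hm1 a1
  have b2 := mul_le_mul_of_nonneg_right hm2 a2
  nlinarith [b1, b2, a3, a4]

include r11 r12 r22 in
theorem TT_tame : Tame (TT Φ lam b11 b12 b22) := by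
  have t1 : Tame (muH (rs1 Φ)) := tame_muH (norm_rs1_le Φ)
  have t2 : Tame (muH (rs2 Φ)) := tame_muH (norm_rs2_le Φ)
  have t0 : Tame (muH dl0) := tame_muH norm_dl0_le
  have u11 : Tame (cvH b11) := tame_cvH r11
  have u12 : Tame (cvH b12) := tame_cvH r12
  have u22 : Tame (cvH b22) := tame_cvH r22
  have v1 : Tame (VV1 Φ b11 b12) := (u11.comp t1).add (u12.comp t2)
  have v2 : Tame (VV2 Φ b12 b22) := (u12.comp t1).add (u22.comp t2)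
  exact (((((t1.comp t1).add (t2.comp t2)).smul (lam : ℂ)).add
    (t1.comp ((u11.comp v1).add (u12.comp v2)))).add
    (t2.comp ((u12.comp v1).add (u22.comp v2)))).add t0

end

end Vale.Agent.P205U
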