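import Vale.Agent.P205U.HMul

/-! # P205U : truncated weights and tame operators -/

namespace Vale.Agent.P205U

open Vale.Agent.P205T

/-- The truncated weight `min (nrm k) (N + 1)`. -/
noncomputable def wN (N : ℕ) (k : ℤ × ℤ) : ℝ := min (nrm k) ((N : ℝ) + 1)

lemma one_le_wN (N : ℕ) (k : ℤ × ℤ) : 1 ≤ wN N k := by
  unfold wN
  refine le_min ?_ ?_
  · unfold nrm
    have h1 := abs_nonneg (k.1 : ℝ)
    have h2 := abs_nonneg (k.2 : ℝ)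
    linarith
  · have : (0 : ℝ) ≤ (N : ℝ) := Nat.cast_nonneg N
    linarith

lemma wN_le_nrm (N : ℕ) (k : ℤ × ℤ) : wN N k ≤ nrm k := by
  unfold wN
  exact min_le_left _ _

lemma wN_le (N : ℕ) (k : ℤ × ℤ) : wN N k ≤ (N : ℝ) + 1 := by
  unfold wN
  exact min_le_right _ _

lemma wN_eq {N : ℕ} {k : ℤ × ℤ} (h : nrm k ≤ (N : ℝ) + 1) : wN N k = nrm k := by
  unfold wN
  exact min_eq_left h

/-- The bounded multiplier `wN N ^ s`. -/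
noncomputable def Lam (N s : ℕ) : HH →L[ℂ] HH := muH fun k => ((wN N k ^ s : ℝ) : ℂ)

private lemma wN_pow_bound (N s : ℕ) (k : ℤ × ℤ) :
    ‖((wN N k ^ s : ℝ) : ℂ)‖ ≤ ((N : ℝ) + 1) ^ s := by
  have h0 : 0 ≤ wN N k := le_trans zero_le_one (one_le_wN N k)
  rw [Complex.norm_real, Real.norm_eq_abs, abs_of_nonneg (pow_nonneg h0 s)]
  exact pow_le_pow_left₀ h0 (wN_le N k) s

lemma Lam_apply (N s : ℕ) (ξ : HH) (k : ℤ × ℤ) : Lam N s ξ k = ((wN N k ^ s : ℝ) : ℂ) * ξ k := by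
  unfold Lam
  exact muH_apply (wN_pow_bound N s) ξ k

lemma Lam_zero (N : ℕ) (ξ : HH) : Lam N 0 ξ = ξ := by
  refine lp.ext (funext fun k => ?_)
  rw [Lam_apply]
  simp

/-- Tame operators: bounded in all the truncated weighted norms, uniformly in the truncation, and
with commutators which gain one power of the weight. -/
structure Tame (S : HH →L[ℂ] HH) : Prop where
  bd : ∀ s : ℕ, ∃ C : ℝ, ∀ (N : ℕ) (ξ : HH), ‖Lam N s (S ξ)‖ ≤ C * ‖Lam N s ξ‖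
  cm : ∀ s : ℕ, ∃ C : ℝ, ∀ (N : ℕ) (ξ : HH),
    ‖S (Lam N (s + 1) ξ) - Lam N (s + 1) (S ξ)‖ ≤ C * ‖Lam N s ξ‖

lemma Tame.add {S₁ S₂ : HH →L[ℂ] HH} (h₁ : Tame S₁) (h₂ : Tame S₂) : Tame (S₁ + S₂) := by
  constructor
  · intro s
    obtain ⟨C₁, hC₁⟩ := h₁.bd s
    obtain ⟨C₂, hC₂⟩ := h₂.bd s
    refine ⟨C₁ + C₂, fun N ξ => ?_⟩
    rw [add_apply, map_add, add_mul]
    exact le_trans (norm_add_le _ _) (add_le_add (hC₁ N ξ) (hC₂ N ξ))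
  · intro s
    obtain ⟨C₁, hC₁⟩ := h₁.cm s
    obtain ⟨C₂, hC₂⟩ := h₂.cm s
    refine ⟨C₁ + C₂, fun N ξ => ?_⟩
    rw [add_apply, add_apply, map_add, add_mul]
    have e : S₁ (Lam N (s + 1) ξ) + S₂ (Lam N (s + 1) ξ)
        - (Lam N (s + 1) (S₁ ξ) + Lam N (s + 1) (S₂ ξ))
        = (S₁ (Lam N (s + 1) ξ) - Lam N (s + 1) (S₁ ξ))
          + (S₂ (Lam N (s + 1) ξ) - Lam N (s + 1) (S₂ ξ)) := by abel
    rw [e]
    exact le_trans (norm_add_le _ _) (add_le_add (hC₁ N ξ) (hC₂ N ξ))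

lemma Tame.smul {S : HH →L[ℂ] HH} (h : Tame S) (c : ℂ) : Tame (c • S) := by
  constructor
  · intro s
    obtain ⟨C, hC⟩ := h.bd s
    refine ⟨‖c‖ * C, fun N ξ => ?_⟩
    rw [smul_apply, map_smul, norm_smul, mul_assoc]
    exact mul_le_mul_of_nonneg_left (hC N ξ) (norm_nonneg _)
  · intro s
    obtain ⟨C, hC⟩ := h.cm s
    refine ⟨‖c‖ * C, fun N ξ => ?_⟩
    rw [smul_apply, smul_apply, map_smul, ← smul_sub,
      norm_smul, mul_assoc]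
    exact mul_le_mul_of_nonneg_left (hC N ξ) (norm_nonneg _)

/-- `[S₁ S₂, Λ] = S₁ [S₂, Λ] + [S₁, Λ] S₂`. -/
lemma Tame.comp {S₁ S₂ : HH →L[ℂ] HH} (h₁ : Tame S₁) (h₂ : Tame S₂) : Tame (S₁ ∘L S₂) := by
  constructor
  · intro s
    obtain ⟨C₁, hC₁⟩ := h₁.bd s
    obtain ⟨C₂, hC₂⟩ := h₂.bd s
    refine ⟨|C₁| * C₂, fun N ξ => ?_⟩
    rw [ContinuousLinearMap.comp_apply]
    calc ‖Lam N s (S₁ (S₂ ξ))‖ ≤ C₁ * ‖Lam N s (S₂ ξ)‖ := hC₁ N (S₂ ξ)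
      _ ≤ |C₁| * ‖Lam N s (S₂ ξ)‖ :=
          mul_le_mul_of_nonneg_right (le_abs_self _) (norm_nonneg _)
      _ ≤ |C₁| * (C₂ * ‖Lam N s ξ‖) := mul_le_mul_of_nonneg_left (hC₂ N ξ) (abs_nonneg _)
      _ = |C₁| * C₂ * ‖Lam N s ξ‖ := by ring
  · intro s
    obtain ⟨C₁, hC₁⟩ := h₁.cm s
    obtain ⟨C₂, hC₂⟩ := h₂.cm s
    obtain ⟨B₂, hB₂⟩ := h₂.bd s
    refine ⟨‖S₁‖ * C₂ + |C₁| * B₂, fun N ξ => ?_⟩
    rw [ContinuousLinearMap.comp_apply, ContinuousLinearMap.comp_apply]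
    have e : S₁ (S₂ (Lam N (s + 1) ξ)) - Lam N (s + 1) (S₁ (S₂ ξ))
        = S₁ (S₂ (Lam N (s + 1) ξ) - Lam N (s + 1) (S₂ ξ))
          + (S₁ (Lam N (s + 1) (S₂ ξ)) - Lam N (s + 1) (S₁ (S₂ ξ))) := by
      rw [map_sub]
      abel
    rw [e]
    have t1 : ‖S₁ (S₂ (Lam N (s + 1) ξ) - Lam N (s + 1) (S₂ ξ))‖
        ≤ ‖S₁‖ * (C₂ * ‖Lam N s ξ‖) :=
      le_trans (S₁.le_opNorm _) (mul_le_mul_of_nonneg_left (hC₂ N ξ) (norm_nonneg _))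
    have t2 : ‖S₁ (Lam N (s + 1) (S₂ ξ)) - Lam N (s + 1) (S₁ (S₂ ξ))‖
        ≤ |C₁| * (B₂ * ‖Lam N s ξ‖) := by
      calc ‖S₁ (Lam N (s + 1) (S₂ ξ)) - Lam N (s + 1) (S₁ (S₂ ξ))‖
          ≤ C₁ * ‖Lam N s (S₂ ξ)‖ := hC₁ N (S₂ ξ)
        _ ≤ |C₁| * ‖Lam N s (S₂ ξ)‖ :=
            mul_le_mul_of_nonneg_right (le_abs_self _) (norm_nonneg _)
        _ ≤ |C₁| * (B₂ * ‖Lam N s ξ‖) := mul_le_mul_of_nonneg_left (hB₂ N ξ) (abs_nonneg _)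
    calc _ ≤ _ := norm_add_le _ _
      _ ≤ ‖S₁‖ * (C₂ * ‖Lam N s ξ‖) + |C₁| * (B₂ * ‖Lam N s ξ‖) := add_le_add t1 t2
      _ = (‖S₁‖ * C₂ + |C₁| * B₂) * ‖Lam N s ξ‖ := by ring

/-- Bounded multipliers commute with the weights. -/
lemma tame_muH {s : ℤ × ℤ → ℂ} {C : ℝ} (hs : ∀ k, ‖s k‖ ≤ C) : Tame (muH s) := by
  have hcomm : ∀ (N t : ℕ) (ξ : HH), Lam N t (muH s ξ) = muH s (Lam N t ξ) := by
    intro N t ξ
    unfold Lam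
    exact muH_comm (wN_pow_bound N t) hs ξ
  constructor
  · intro t
    refine ⟨C, fun N ξ => ?_⟩
    rw [hcomm]
    exact norm_muH_le hs _
  · intro t
    refine ⟨0, fun N ξ => ?_⟩
    rw [hcomm, sub_self, norm_zero, zero_mul]

end Vale.Agent.P205U
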