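import Vale.Agent.P205U.Tame
import Vale.Agent.P205U.HConv

/-! # P205U : convolution by a rapidly decreasing family is tame -/

namespace Vale.Agent.P205U

open Vale.Agent.P205T

private lemma one_le_nrm' (m : ℤ × ℤ) : 1 ≤ nrm m := by
  unfold nrm
  have h1 := abs_nonneg (m.1 : ℝ)
  have h2 := abs_nonneg (m.2 : ℝ)
  linarith

private lemma abs_nrm_sub_le (k m : ℤ × ℤ) : |nrm k - nrm (k - m)| ≤ nrm m - 1 := by
  unfold nrm
  have e1 : (((k - m).1 : ℤ) : ℝ) = (k.1 : ℝ) - (m.1 : ℝ) := by simp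
  have e2 : (((k - m).2 : ℤ) : ℝ) = (k.2 : ℝ) - (m.2 : ℝ) := by simp
  rw [e1, e2]
  have a1 := abs_abs_sub_abs_le_abs_sub (k.1 : ℝ) ((k.1 : ℝ) - (m.1 : ℝ))
  have a2 := abs_abs_sub_abs_le_abs_sub (k.2 : ℝ) ((k.2 : ℝ) - (m.2 : ℝ))
  have b1 : (k.1 : ℝ) - ((k.1 : ℝ) - (m.1 : ℝ)) = m.1 := by ring
  have b2 : (k.2 : ℝ) - ((k.2 : ℝ) - (m.2 : ℝ)) = m.2 := by ring
  rw [b1] at a1
  rw [b2] at a2
  rw [abs_le] at a1 a2 ⊢
  constructor <;> linarith [a1.1, a1.2, a2.1, a2.2]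

lemma wN_le_mul (N : ℕ) (k m : ℤ × ℤ) : wN N k ≤ wN N (k - m) * nrm m := by
  have hm := one_le_nrm' m
  have hx := one_le_nrm' (k - m)
  have hk := (abs_le.mp (abs_nrm_sub_le k m)).2
  have hN : (0 : ℝ) ≤ (N : ℝ) + 1 := by positivity
  unfold wN
  rcases le_total (nrm (k - m)) ((N : ℝ) + 1) with h | h
  · rw [min_eq_left h]
    refine (min_le_left _ _).trans ?_
    nlinarith [mul_nonneg (sub_nonneg.mpr hx) (sub_nonneg.mpr hm)]
  · rw [min_eq_right h]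
    refine (min_le_right _ _).trans ?_
    nlinarith

lemma abs_wN_sub_le (N : ℕ) (k m : ℤ × ℤ) : |wN N k - wN N (k - m)| ≤ nrm m - 1 := by
  unfold wN
  refine (abs_min_sub_min_le_max _ _ _ _).trans (max_le (abs_nrm_sub_le k m) ?_)
  have hm := one_le_nrm' m
  simp only [sub_self, abs_zero]
  linarith

lemma abs_wN_pow_sub_le (N s : ℕ) (k m : ℤ × ℤ) :
    |wN N k ^ (s + 1) - wN N (k - m) ^ (s + 1)| ≤
      ((s : ℝ) + 1) * nrm m ^ (s + 1) * wN N (k - m) ^ s := by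
  have hm := one_le_nrm' m
  have hy := one_le_wN N k
  have hx := one_le_wN N (k - m)
  have h1 := abs_pow_sub_pow_le (wN N k) (wN N (k - m)) (s + 1)
  have h2 := abs_wN_sub_le N k m
  have h3 := wN_le_mul N k m
  have h4 : max |wN N k| |wN N (k - m)| ≤ wN N (k - m) * nrm m := by
    rw [abs_of_nonneg (by linarith), abs_of_nonneg (by linarith)]
    refine max_le h3 ?_
    nlinarith
  have h5 : max |wN N k| |wN N (k - m)| ^ (s + 1 - 1) ≤ (wN N (k - m) * nrm m) ^ s := by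
    simp only [Nat.add_sub_cancel]
    exact pow_le_pow_left₀ (le_max_of_le_left (abs_nonneg _)) h4 s
  have h6 : |wN N k - wN N (k - m)| ≤ nrm m := by linarith
  calc |wN N k ^ (s + 1) - wN N (k - m) ^ (s + 1)|
      ≤ |wN N k - wN N (k - m)| * ((s + 1 : ℕ) : ℝ) *
          max |wN N k| |wN N (k - m)| ^ (s + 1 - 1) := h1
    _ ≤ nrm m * ((s + 1 : ℕ) : ℝ) * (wN N (k - m) * nrm m) ^ s := by
        gcongr
    _ = ((s : ℝ) + 1) * nrm m ^ (s + 1) * wN N (k - m) ^ s := by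
        push_cast
        ring

lemma norm_Lam_shiftH_le (N s : ℕ) (m : ℤ × ℤ) (ξ : HH) :
    ‖Lam N s (shiftH m ξ)‖ ≤ nrm m ^ s * ‖Lam N s ξ‖ := by
  have hm := one_le_nrm' m
  rw [← norm_shiftH m (Lam N s ξ)]
  refine HH.norm_le_of_forall_le (by positivity) (fun k => ?_)
  rw [Lam_apply, shiftH_apply, shiftH_apply, Lam_apply, norm_mul, norm_mul, ← mul_assoc]
  refine mul_le_mul_of_nonneg_right ?_ (norm_nonneg _)
  have hy := one_le_wN N k
  have hx := one_le_wN N (k - m)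
  rw [Complex.norm_real, Complex.norm_real, Real.norm_of_nonneg (by positivity),
    Real.norm_of_nonneg (by positivity), ← mul_pow, mul_comm]
  exact pow_le_pow_left₀ (by linarith) (wN_le_mul N k m) s

lemma norm_comm_shiftH_le (N s : ℕ) (m : ℤ × ℤ) (ξ : HH) :
    ‖shiftH m (Lam N (s + 1) ξ) - Lam N (s + 1) (shiftH m ξ)‖ ≤
      ((s : ℝ) + 1) * nrm m ^ (s + 1) * ‖Lam N s ξ‖ := by
  have hm := one_le_nrm' m
  rw [← norm_shiftH m (Lam N s ξ)]
  refine HH.norm_le_of_forall_le (by positivity) (fun k => ?_)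
  have e : (shiftH m (Lam N (s + 1) ξ) - Lam N (s + 1) (shiftH m ξ)) k =
      shiftH m (Lam N (s + 1) ξ) k - Lam N (s + 1) (shiftH m ξ) k := rfl
  rw [e, Lam_apply, shiftH_apply, shiftH_apply, shiftH_apply, Lam_apply, Lam_apply, ← sub_mul,
    norm_mul, norm_mul, ← mul_assoc]
  refine mul_le_mul_of_nonneg_right ?_ (norm_nonneg _)
  have hx := one_le_wN N (k - m)
  rw [← Complex.ofReal_sub, Complex.norm_real, Complex.norm_real,
    Real.norm_of_nonneg (r := wN N (k - m) ^ s) (by positivity), Real.norm_eq_abs, abs_sub_comm]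
  exact abs_wN_pow_sub_le N s k m

theorem tame_cvH {b : ℤ × ℤ → ℂ} (hb : RD b) : Tame (cvH b) := by
  have hb0 : Summable fun k => ‖b k‖ := by
    simpa using hb 0
  constructor
  · intro s
    refine ⟨∑' m, ‖b m‖ * nrm m ^ s, fun N ξ => ?_⟩
    rw [cvH_eq_tsum hb0, (Lam N s).map_tsum (summable_cvH_apply hb0 ξ), ← tsum_mul_right]
    have hle : ∀ m, ‖Lam N s (b m • shiftH m ξ)‖ ≤ ‖b m‖ * nrm m ^ s * ‖Lam N s ξ‖ := by
      intro m
      rw [map_smul, norm_smul, mul_assoc]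
      exact mul_le_mul_of_nonneg_left (norm_Lam_shiftH_le N s m ξ) (norm_nonneg _)
    have hs : Summable fun m => ‖b m‖ * nrm m ^ s * ‖Lam N s ξ‖ := (hb s).mul_right _
    exact tsum_of_norm_bounded hs.hasSum hle
  · intro s
    refine ⟨∑' m, ‖b m‖ * nrm m ^ (s + 1) * ((s : ℝ) + 1), fun N ξ => ?_⟩
    rw [cvH_eq_tsum hb0, cvH_eq_tsum hb0, (Lam N (s + 1)).map_tsum (summable_cvH_apply hb0 ξ),
      ← (summable_cvH_apply hb0 _).tsum_sub ((Lam N (s + 1)).summable (summable_cvH_apply hb0 ξ)),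
      ← tsum_mul_right]
    have hle : ∀ m, ‖b m • shiftH m (Lam N (s + 1) ξ) - Lam N (s + 1) (b m • shiftH m ξ)‖ ≤
        ‖b m‖ * nrm m ^ (s + 1) * ((s : ℝ) + 1) * ‖Lam N s ξ‖ := by
      intro m
      rw [map_smul, ← smul_sub, norm_smul]
      calc ‖b m‖ * ‖shiftH m (Lam N (s + 1) ξ) - Lam N (s + 1) (shiftH m ξ)‖
          ≤ ‖b m‖ * (((s : ℝ) + 1) * nrm m ^ (s + 1) * ‖Lam N s ξ‖) :=
            mul_le_mul_of_nonneg_left (norm_comm_shiftH_le N s m ξ) (norm_nonneg _)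
        _ = ‖b m‖ * nrm m ^ (s + 1) * ((s : ℝ) + 1) * ‖Lam N s ξ‖ := by ring
    have hs : Summable fun m => ‖b m‖ * nrm m ^ (s + 1) * ((s : ℝ) + 1) * ‖Lam N s ξ‖ :=
      ((hb (s + 1)).mul_right _).mul_right _
    exact tsum_of_norm_bounded hs.hasSum hle

end Vale.Agent.P205U
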